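import Vale.Agent.Lib.P333K.Gram

/-! The level inequality: small cycles in the graph of factors of a word are independent. -/

namespace Vale.Agent.Lib.P333K

variable {α : Type*} [DecidableEq α]

/-- the set of distinct factors of length `t` of a word -/
def grams (W : List α) (t : ℕ) : Finset (List α) :=
  (Finset.range (W.length + 1 - t)).image (fun i => (W.drop i).take t)

lemma mem_grams {W : List α} {t : ℕ} {x : List α} :
    x ∈ grams W t ↔ x.length = t ∧ x <:+: W := by
  unfold grams
  simp only [Finset.mem_image, Finset.mem_range]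
  constructor
  · rintro ⟨i, hi, rfl⟩
    constructor
    · simp only [List.length_take, List.length_drop]; omega
    · exact ((List.take_prefix _ _).isInfix).trans (List.drop_suffix _ _).isInfix
  · rintro ⟨hl, P, Q, rfl⟩
    refine ⟨P.length, ?_, ?_⟩
    · simp only [List.length_append]; omega
    · subst hl
      simp [List.append_assoc]

/-- a general count: a graph in which potentials constant along the edges are constant -/
lemma card_le_of_conn {β γ : Type*} [DecidableEq β] [DecidableEq γ] (V : Finset β) (E : Finset γ)
    (tl hd : γ → β) (htl : ∀ e ∈ E, tl e ∈ V) (hhd : ∀ e ∈ E, hd e ∈ V)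
    (hconn : ∀ g : β → ℚ, (∀ e ∈ E, g (tl e) = g (hd e)) → ∀ x ∈ V, ∀ y ∈ V, g x = g y) :
    V.card ≤ E.card + 1 := by
  classical
  rcases V.eq_empty_or_nonempty with rfl | ⟨x0, hx0⟩
  · simp
  let Θ : ({x // x ∈ V} → ℚ) →ₗ[ℚ] ({e // e ∈ E} → ℚ) :=
    { toFun := fun f e => f ⟨tl e.1, htl e.1 e.2⟩ - f ⟨hd e.1, hhd e.1 e.2⟩
      map_add' := by
        intro f f'
        funext e
        simp only [Pi.add_apply]
        ring
      map_smul' := by
        intro c f
        funext e
        simp only [Pi.smul_apply, RingHom.id_apply, smul_eq_mul]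
        ring }
  have hker : Module.finrank ℚ (LinearMap.ker Θ) ≤ 1 := by
    have hv : (fun _ => 1 : {x // x ∈ V} → ℚ) ∈ LinearMap.ker Θ := by
      rw [LinearMap.mem_ker]
      funext e
      show (1 : ℚ) - 1 = 0
      ring
    apply finrank_le_one (⟨_, hv⟩ : LinearMap.ker Θ)
    rintro ⟨w, hw⟩
    refine ⟨w ⟨x0, hx0⟩, ?_⟩
    apply Subtype.ext
    funext x
    show w ⟨x0, hx0⟩ * 1 = w x
    rw [mul_one]
    rw [LinearMap.mem_ker] at hw
    let g : β → ℚ := fun y => if h : y ∈ V then w ⟨y, h⟩ else 0
    have hg : ∀ y (h : y ∈ V), g y = w ⟨y, h⟩ := by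
      intro y h
      simp [g, h]
    have h1 : ∀ e ∈ E, g (tl e) = g (hd e) := by
      intro e he
      rw [hg _ (htl e he), hg _ (hhd e he)]
      have := congrFun hw ⟨e, he⟩
      have h2 : w ⟨tl e, htl e he⟩ - w ⟨hd e, hhd e he⟩ = 0 := this
      linarith
    have := hconn g h1 x0 hx0 x.1 x.2
    rw [hg _ hx0, hg _ x.2] at this
    exact this
  have h1 := LinearMap.finrank_range_add_finrank_ker Θ
  have h2 : Module.finrank ℚ (LinearMap.range Θ) ≤ Module.finrank ℚ ({e // e ∈ E} → ℚ) :=
    Submodule.finrank_le _
  rw [Module.finrank_fintype_fun_eq_card] at h1 h2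
  simp only [Fintype.card_coe] at h1 h2
  omega

/-- a period seen from some point on is a period -/
lemma period_of_tail {u : ℕ → α} {p d a : ℕ} (hp : 0 < p) (hper : ∀ k, u (k + p) = u k)
    (h : ∀ j, u (a + j + d) = u (a + j)) (k : ℕ) : u (k + d) = u k := by
  have h7 : a ≤ k + (a + 1) * p := by nlinarith
  have h8 := h (k + (a + 1) * p - a)
  rw [show a + (k + (a + 1) * p - a) + d = k + d + (a + 1) * p by omega,
    show a + (k + (a + 1) * p - a) = k + (a + 1) * p by omega,
    periodic_add_mul hper, periodic_add_mul hper] at h8
  exact h8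

/-- a window of length the period shifted by `d` gives the period `d` -/
lemma period_of_window {u : ℕ → α} {p d a : ℕ} (hp : 0 < p) (hper : ∀ k, u (k + p) = u k)
    (h : ∀ k, k < p → u (a + d + k) = u (a + k)) (k : ℕ) : u (k + d) = u k := by
  apply period_of_tail (a := a) hp hper
  intro j
  have hv : ∀ k, (fun k => u (k + d)) (k + p) = (fun k => u (k + d)) k := by
    intro k
    show u (k + p + d) = u (k + d)
    rw [show k + p + d = k + d + p by ring, hper]
  exact agree_of_window (u := fun k => u (k + d)) (v := u) hv hper hp (a := a) (b := a)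
    (fun k hk => by
      show u (a + k + d) = u (a + k)
      rw [show a + k + d = a + d + k by ring]
      exact h k hk) j

/-- the unbordered window: the edge it starts is not on a cycle of another class of not longer
period -/
lemma private_edge {u v : ℕ → α} {p q z0 z t : ℕ} (hq : 0 < q) (hqp : q ≤ p) (hp : p ≤ t + 1)
    (huper : ∀ k, u (k + p) = u k) (hvper : ∀ k, v (k + q) = v k)
    (ub : ∀ q, 0 < q → q < p → ¬ ∀ k, k + q < p → u (z0 + k + q) = u (z0 + k))
    (hne : ∀ a b, ¬ ∀ k, v (a + k) = u (b + k))
    (h : gram v z (t + 1) = gram u z0 (t + 1)) : False := by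
  have hag : ∀ k, k < t + 1 → v (z + k) = u (z0 + k) := fun k hk => gram_ext h k hk
  rcases lt_or_eq_of_le hqp with hlt | heq
  · apply ub q hq hlt
    intro k hk
    have h1 := hag (k + q) (by omega)
    have h2 := hag k (by omega)
    rw [add_assoc, ← h1, ← h2, ← add_assoc, hvper]
  · subst heq
    apply hne z z0
    exact agree_of_window hvper huper hq (fun k hk => hag k (by omega))

/-- distinct residues give distinct edges on a primitive cycle -/
lemma self_edge_ne {u : ℕ → α} {p d z0 t : ℕ} (hp : 0 < p) (hp' : p ≤ t + 1)
    (huper : ∀ k, u (k + p) = u k) (hprim : ∀ d, 0 < d → d < p → ∃ k, u (k + d) ≠ u k)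
    (hd : 0 < d) (hdp : d < p) (h : gram u (z0 + d) (t + 1) = gram u z0 (t + 1)) : False := by
  obtain ⟨k, hk⟩ := hprim d hd hdp
  apply hk
  exact period_of_window hp huper (a := z0) (fun k hk' => gram_ext h k (by omega)) k

lemma gram_take_succ (u : ℕ → α) (z t : ℕ) : (gram u z (t + 1)).take t = gram u z t :=
  gram_take u z (t + 1) t (Nat.le_succ t)

/-- the level inequality -/
theorem level_ineq {ι : Type*} [DecidableEq ι] (W : List α) (t : ℕ) (ht : t < W.length)
    (I : Finset ι) (u : ι → ℕ → α) (p : ι → ℕ)
    (hp : ∀ i ∈ I, 0 < p i) (hper : ∀ i ∈ I, ∀ k, u i (k + p i) = u i k)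
    (hprim : ∀ i ∈ I, ∀ d, 0 < d → d < p i → ∃ k, u i (k + d) ≠ u i k)
    (hdist : ∀ i ∈ I, ∀ j ∈ I, i ≠ j → ∀ a b, ¬ ∀ k, u j (a + k) = u i (b + k))
    (hle : ∀ i ∈ I, p i ≤ t + 1)
    (hocc : ∀ i ∈ I, ∀ z, gram (u i) z (t + 1) <:+: W) :
    I.card + (grams W t).card ≤ (grams W (t + 1)).card + 1 := by
  classical
  -- unbordered windows
  have hub : ∀ i ∈ I, ∃ z0, ∀ q, 0 < q → q < p i →
      ¬ ∀ k, k + q < p i → u i (z0 + k + q) = u i (z0 + k) :=
    fun i hi => exists_unbordered (hp i hi) (hper i hi) (hprim i hi)
  choose! z0 hz0 using hub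
  let e : ι → List α := fun i => gram (u i) (z0 i) (t + 1)
  have hpriv : ∀ i ∈ I, ∀ j ∈ I, i ≠ j → p j ≤ p i → ∀ z, gram (u j) z (t + 1) ≠ e i := by
    intro i hi j hj hij hji z hz
    exact private_edge (hp j hj) hji (hle i hi) (hper i hi) (hper j hj) (hz0 i hi)
      (hdist i hi j hj hij) hz
  have hinj : Set.InjOn e I := by
    intro i hi j hj hij
    by_contra hne
    have hi' : i ∈ I := hi
    have hj' : j ∈ I := hj
    rcases le_total (p i) (p j) with h | h
    · exact hpriv j hj' i hi' (Ne.symm hne) h (z0 i) hij
    · exact hpriv i hi' j hj' hne h (z0 j) hij.symm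
  let P : Finset (List α) := I.image e
  have hPcard : P.card = I.card := Finset.card_image_of_injOn hinj
  have hPsub : P ⊆ grams W (t + 1) := by
    intro x hx
    obtain ⟨i, hi, rfl⟩ := Finset.mem_image.1 hx
    exact mem_grams.2 ⟨by simp [e], hocc i hi _⟩
  let E' := grams W (t + 1) \ P
  have hE'card : E'.card + I.card = (grams W (t + 1)).card := by
    rw [← hPcard]
    exact Finset.card_sdiff_add_card_eq_card hPsub
  have hedge : ∀ x ∈ grams W (t + 1), x.take t ∈ grams W t ∧ x.drop 1 ∈ grams W t := by
    intro x hx
    obtain ⟨hl, hi⟩ := mem_grams.1 hx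
    constructor
    · refine mem_grams.2 ⟨by simp [hl], ((List.take_prefix _ _).isInfix).trans hi⟩
    · refine mem_grams.2 ⟨by simp [hl], ((List.drop_suffix _ _).isInfix).trans hi⟩
  have key : (grams W t).card ≤ E'.card + 1 := by
    apply card_le_of_conn (grams W t) E' (fun x => x.take t) (fun x => x.drop 1)
    · intro x hx
      exact (hedge x (Finset.mem_sdiff.1 hx).1).1
    · intro x hx
      exact (hedge x (Finset.mem_sdiff.1 hx).1).2
    · intro g hg
      -- propagate to private edges
      have hprop : ∀ n, ∀ i ∈ I, p i = n → g ((e i).take t) = g ((e i).drop 1) := by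
        intro n
        induction n using Nat.strong_induction_on with
        | _ n ih =>
          intro i hi hin
          have hstep : ∀ z, z0 i < z → z < z0 i + p i →
              g (gram (u i) z t) = g (gram (u i) (z + 1) t) := by
            intro z hz1 hz2
            have hx : gram (u i) z (t + 1) ∈ grams W (t + 1) :=
              mem_grams.2 ⟨by simp, hocc i hi _⟩
            have h1 : (gram (u i) z (t + 1)).take t = gram (u i) z t := gram_take_succ _ _ _
            have h2 : (gram (u i) z (t + 1)).drop 1 = gram (u i) (z + 1) t := gram_drop_one _ _ _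
            by_cases hP : gram (u i) z (t + 1) ∈ P
            · obtain ⟨j, hj, hje⟩ := Finset.mem_image.1 hP
              by_cases hij : j = i
              · subst hij
                exfalso
                apply self_edge_ne (hp j hi) (hle j hi) (hper j hi) (hprim j hi)
                  (d := z - z0 j) (z0 := z0 j) (t := t) (by omega) (by omega)
                rw [show z0 j + (z - z0 j) = z by omega]
                exact hje.symm
              · have hlt : p j < p i := by
                  by_contra hcon
                  exact hpriv j hj i hi hij (by omega) z hje.symm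
                have := ih (p j) (by omega) j hj rfl
                rw [hje, h1, h2] at this
                exact this
            · have := hg _ (Finset.mem_sdiff.2 ⟨hx, hP⟩)
              simp only [h1, h2] at this
              exact this
          have hchain : ∀ d, d < p i → g (gram (u i) (z0 i + 1) t) = g (gram (u i) (z0 i + 1 + d) t) := by
            intro d
            induction d with
            | zero => intro _; rfl
            | succ d ihd =>
              intro hd
              rw [ihd (by omega), hstep (z0 i + 1 + d) (by omega) (by omega)]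
              rfl
          have hclose : gram (u i) (z0 i + 1 + (p i - 1)) t = gram (u i) (z0 i) t := by
            have hpi := hp i hi
            rw [show z0 i + 1 + (p i - 1) = z0 i + p i by omega]
            apply gram_eq_of
            intro k _
            rw [show z0 i + p i + k = z0 i + k + p i by ring, hper i hi]
          have h1 : (e i).take t = gram (u i) (z0 i) t := gram_take_succ _ _ _
          have h2 : (e i).drop 1 = gram (u i) (z0 i + 1) t := gram_drop_one _ _ _
          rw [h1, h2, hchain (p i - 1) (by have := hp i hi; omega), hclose]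
      have hall : ∀ x ∈ grams W (t + 1), g (x.take t) = g (x.drop 1) := by
        intro x hx
        by_cases hP : x ∈ P
        · obtain ⟨i, hi, rfl⟩ := Finset.mem_image.1 hP
          exact hprop _ i hi rfl
        · exact hg x (Finset.mem_sdiff.2 ⟨hx, hP⟩)
      -- the word is a walk through all the vertices
      have hwalk : ∀ i, i + t ≤ W.length → g ((W.drop i).take t) = g (W.take t) := by
        intro i
        induction i with
        | zero => intro _; simp
        | succ i ih =>
          intro hi
          rw [← ih (by omega)]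
          have hx : (W.drop i).take (t + 1) ∈ grams W (t + 1) := by
            refine mem_grams.2 ⟨?_, ((List.take_prefix _ _).isInfix).trans (List.drop_suffix _ _).isInfix⟩
            simp only [List.length_take, List.length_drop]
            omega
          have := hall _ hx
          rw [List.take_take, Nat.min_eq_left (Nat.le_succ t)] at this
          rw [this]
          congr 1
          rw [List.drop_take, List.drop_drop]
          simp
      have hall2 : ∀ x ∈ grams W t, g x = g (W.take t) := by
        intro x hx
        obtain ⟨hl, P', Q, rfl⟩ := mem_grams.1 hx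
        have := hwalk P'.length (by simp only [List.length_append]; omega)
        rw [← this]
        congr 1
        subst hl
        simp [List.append_assoc]
      intro x hx y hy
      rw [hall2 x hx, hall2 y hy]
  omega

/-- the core inequality: classes of pairwise non conjugate primitive periodic words whose windows of
length `τ i + 1` all occur in `W` satisfy `∑ (τ i + 2 - p i) ≤ |W|` (truncated subtraction) -/
theorem core_ineq {ι : Type*} [DecidableEq ι] (W : List α)
    (I : Finset ι) (u : ι → ℕ → α) (p τ : ι → ℕ)
    (hp : ∀ i ∈ I, 0 < p i) (hper : ∀ i ∈ I, ∀ k, u i (k + p i) = u i k)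
    (hprim : ∀ i ∈ I, ∀ d, 0 < d → d < p i → ∃ k, u i (k + d) ≠ u i k)
    (hdist : ∀ i ∈ I, ∀ j ∈ I, i ≠ j → ∀ a b, ¬ ∀ k, u j (a + k) = u i (b + k))
    (hocc : ∀ i ∈ I, ∀ z, gram (u i) z (τ i + 1) <:+: W) :
    ∑ i ∈ I, (τ i + 2 - p i) ≤ W.length := by
  classical
  set n := W.length with hn
  let N : ℕ → ℕ := fun t => (I.filter (fun i => p i ≤ t + 1 ∧ t ≤ τ i)).card
  have hlevel : ∀ t, t < n → N t + (grams W t).card ≤ (grams W (t + 1)).card + 1 := by
    intro t ht
    apply level_ineq W t ht (I.filter (fun i => p i ≤ t + 1 ∧ t ≤ τ i)) u p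
    · exact fun i hi => hp i (Finset.mem_filter.1 hi).1
    · exact fun i hi => hper i (Finset.mem_filter.1 hi).1
    · exact fun i hi => hprim i (Finset.mem_filter.1 hi).1
    · exact fun i hi j hj => hdist i (Finset.mem_filter.1 hi).1 j (Finset.mem_filter.1 hj).1
    · exact fun i hi => (Finset.mem_filter.1 hi).2.1
    · intro i hi z
      have h1 := hocc i (Finset.mem_filter.1 hi).1 z
      have h2 := (Finset.mem_filter.1 hi).2.2
      have h3 : gram (u i) z (t + 1) <+: gram (u i) z (τ i + 1) := by
        rw [← gram_take (u i) z (τ i + 1) (t + 1) (by omega)]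
        exact List.take_prefix _ _
      exact h3.isInfix.trans h1
  have htel : ∀ m, m ≤ n → ∑ t ∈ Finset.range m, N t + (grams W 0).card ≤ (grams W m).card + m := by
    intro m
    induction m with
    | zero => intro _; simp
    | succ m ih =>
      intro hm
      have h1 := ih (by omega)
      have h2 := hlevel m (by omega)
      rw [Finset.sum_range_succ]
      omega
  have h0 : 1 ≤ (grams W 0).card := by
    apply Finset.card_pos.2
    exact ⟨[], mem_grams.2 ⟨rfl, List.nil_infix⟩⟩
  have hnn : (grams W n).card ≤ 1 := by
    apply Finset.card_le_one.2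
    intro x hx y hy
    obtain ⟨h1, h2⟩ := mem_grams.1 hx
    obtain ⟨h3, h4⟩ := mem_grams.1 hy
    rw [h2.eq_of_length h1, h4.eq_of_length h3]
  have hsum : ∑ t ∈ Finset.range n, N t ≤ n := by
    have := htel n le_rfl
    omega
  have hdc : ∑ i ∈ I, (τ i + 2 - p i) ≤ ∑ t ∈ Finset.range n, N t := by
    have h1 : ∑ t ∈ Finset.range n, N t
        = ∑ i ∈ I, ((Finset.range n).filter (fun t => p i ≤ t + 1 ∧ t ≤ τ i)).card := by
      simp only [N, Finset.card_filter]
      rw [Finset.sum_comm]
    rw [h1]
    apply Finset.sum_le_sum
    intro i hi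
    have hlen : τ i + 1 ≤ n := by
      have := (hocc i hi 0).length_le
      simpa using this
    have hsub : Finset.Ico (p i - 1) (τ i + 1) ⊆
        (Finset.range n).filter (fun t => p i ≤ t + 1 ∧ t ≤ τ i) := by
      intro t ht
      obtain ⟨h2, h3⟩ := Finset.mem_Ico.1 ht
      refine Finset.mem_filter.2 ⟨Finset.mem_range.2 (by omega), by omega, by omega⟩
    have := Finset.card_le_card hsub
    rw [Nat.card_Ico] at this
    have hpi := hp i hi
    omega
  omega

end Vale.Agent.Lib.P333K
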