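import Vale.Agent.Lib.P333K.Defs
import Vale.Agent.Lib.P333K.Level

/-! Basic facts on overlaps, merged chains and occurrences. -/

namespace Vale.Agent.Lib.P333K

variable {α : Type*} [DecidableEq α]

lemma ov_prop {x y : List α} (hx : x ≠ []) (hy : y ≠ []) :
    ov x y < x.length ∧ ov x y < y.length ∧ x.drop (x.length - ov x y) = y.take (ov x y) := by
  have h0 : 0 < x.length ∧ 0 < y.length ∧ x.drop (x.length - 0) = y.take 0 := by
    refine ⟨List.length_pos_iff.2 hx, List.length_pos_iff.2 hy, ?_⟩
    simp
  exact Nat.findGreatest_spec (P := fun k => k < x.length ∧ k < y.length ∧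
    x.drop (x.length - k) = y.take k) (m := 0) (Nat.zero_le _) h0

lemma le_ov {x y : List α} {k : ℕ} (h1 : k < x.length) (h2 : k < y.length)
    (h3 : x.drop (x.length - k) = y.take k) : k ≤ ov x y :=
  Nat.le_findGreatest (le_of_lt h1) ⟨h1, h2, h3⟩

lemma pre_le (x y : List α) : pre x y ≤ x.length := Nat.sub_le _ _

lemma pre_add_ov {x y : List α} (hx : x ≠ []) (hy : y ≠ []) : pre x y + ov x y = x.length := by
  have := (ov_prop hx hy).1
  unfold pre
  omega

lemma pre_pos {x y : List α} (hx : x ≠ []) (hy : y ≠ []) : 0 < pre x y := by
  have := (ov_prop hx hy).1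
  unfold pre
  omega

lemma gram_drop (v : ℕ → α) (a L d : ℕ) (h : d ≤ L) :
    (gram v a L).drop d = gram v (a + d) (L - d) := by
  have : L = d + (L - d) := by omega
  conv_lhs => rw [this, gram_add]
  simp

lemma gram_infix (v : ℕ → α) {a z L M : ℕ} (h1 : a ≤ z) (h2 : z + L ≤ a + M) :
    gram v z L <:+: gram v a M := by
  have e : M = (z - a) + (L + (a + M - (z + L))) := by omega
  rw [e, gram_add, gram_add]
  rw [show a + (z - a) = z by omega]
  exact ⟨gram v a (z - a), gram v (z + L) (a + M - (z + L)), by simp [List.append_assoc]⟩

/-- the basic comparison: two occurrences in one text bound the prefix cost -/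
lemma pre_le_of_occ (v : ℕ → α) {x y : List α} {a a' : ℕ}
    (hx : gram v a x.length = x) (hy : gram v a' y.length = y) (hlt : a < a')
    (hx0 : x ≠ []) (hy0 : y ≠ []) (hns : x = y ∨ ¬ y <:+: x) : pre x y ≤ a' - a := by
  by_cases h : x.length ≤ a' - a
  · exact (pre_le x y).trans h
  · have hk : x.length - (a' - a) < y.length := by
      rcases hns with rfl | hns
      · omega
      · by_contra hcon
        apply hns
        have h1 : gram v a' y.length <:+: gram v a x.length :=
          gram_infix v (le_of_lt hlt) (by omega)
        rwa [hx, hy] at h1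
    have hk2 : x.length - (a' - a) < x.length := by omega
    have h3 : x.drop (x.length - (x.length - (a' - a))) = y.take (x.length - (a' - a)) := by
      have e1 : x.length - (x.length - (a' - a)) = a' - a := by omega
      rw [e1]
      have h4 : x.drop (a' - a) = gram v a' (x.length - (a' - a)) := by
        conv_lhs => rw [← hx]
        rw [gram_drop v a _ _ (by omega)]
        rw [show a + (a' - a) = a' by omega]
      rw [h4]
      conv_rhs => rw [← hy]
      rw [gram_take v a' _ _ (le_of_lt (by simpa using hk))]
    have := le_ov hk2 hk h3
    unfold pre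
    omega

lemma chain_cons_cons (x y : List α) (l : List (List α)) :
    chain (x :: y :: l) = x.take (pre x y) ++ chain (y :: l) := rfl

lemma prefix_chain (x : List α) (l : List (List α)) (h : ∀ z ∈ x :: l, z ≠ []) :
    x <+: chain (x :: l) := by
  induction l generalizing x with
  | nil => exact List.prefix_refl _
  | cons y l ih =>
    have hx : x ≠ [] := h x (by simp)
    have hy : y ≠ [] := h y (by simp)
    have ih' := ih y (fun z hz => h z (List.mem_cons_of_mem _ hz))
    rw [chain_cons_cons]
    have h1 : x = x.take (pre x y) ++ x.drop (pre x y) := (List.take_append_drop _ _).symm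
    have h2 : x.drop (pre x y) = y.take (ov x y) := (ov_prop hx hy).2.2
    have h3 : y.take (ov x y) <+: chain (y :: l) := (List.take_prefix _ _).trans ih'
    conv_lhs => rw [h1, h2]
    exact (List.prefix_append_right_inj _).2 h3

lemma mem_chain (l : List (List α)) (h : ∀ z ∈ l, z ≠ []) {x : List α} (hx : x ∈ l) :
    x <:+: chain l := by
  induction l with
  | nil => simp at hx
  | cons y l ih =>
    rcases List.mem_cons.1 hx with rfl | hx'
    · exact (prefix_chain _ _ h).isInfix
    · cases l with
      | nil => simp at hx'
      | cons z l =>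
        rw [chain_cons_cons]
        exact (ih (fun w hw => h w (List.mem_cons_of_mem _ hw)) hx').trans
          (List.suffix_append _ _).isInfix

lemma chain_length_add (l : List (List α)) (h : ∀ z ∈ l, z ≠ []) :
    (chain l).length + ovSum l = (l.map List.length).sum := by
  induction l with
  | nil => simp [chain, ovSum]
  | cons x l ih =>
    cases l with
    | nil => simp [chain, ovSum]
    | cons y l =>
      have hx : x ≠ [] := h x (by simp)
      have hy : y ≠ [] := h y (by simp)
      have ih' := ih (fun z hz => h z (List.mem_cons_of_mem _ hz))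
      have h1 := pre_add_ov hx hy
      have h2 := pre_le x y
      rw [chain_cons_cons]
      simp only [List.length_append, List.length_take, List.map_cons, List.sum_cons, ovSum]
      simp only [List.map_cons, List.sum_cons] at ih'
      omega

lemma chain_append_prefix (l m : List (List α)) (hl : l ≠ []) (h : ∀ z ∈ l ++ m, z ≠ []) :
    chain l <+: chain (l ++ m) := by
  induction l with
  | nil => exact absurd rfl hl
  | cons x l ih =>
    cases l with
    | nil => exact prefix_chain x m h
    | cons y l =>
      simp only [List.cons_append]
      rw [chain_cons_cons, chain_cons_cons]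
      exact (List.prefix_append_right_inj _).2
        (ih (by simp) (fun z hz => h z (List.mem_cons_of_mem _ hz)))

lemma chain_infix (l1 l2 l3 : List (List α)) (hl : l2 ≠ []) (h : ∀ z ∈ l1 ++ l2 ++ l3, z ≠ []) :
    chain l2 <:+: chain (l1 ++ l2 ++ l3) := by
  induction l1 with
  | nil =>
    simp only [List.nil_append] at h ⊢
    exact (chain_append_prefix l2 l3 hl h).isInfix
  | cons x l1 ih =>
    have ih' := ih (fun z hz => h z (List.mem_cons_of_mem _ hz))
    have hne : l1 ++ l2 ++ l3 ≠ [] := by
      intro h0
      simp at h0
      exact hl h0.2.1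
    rcases List.exists_cons_of_ne_nil hne with ⟨y, t, ht⟩
    have e : x :: l1 ++ l2 ++ l3 = x :: (l1 ++ l2 ++ l3) := by simp
    rw [e, ht, chain_cons_cons, ← ht]
    exact ih'.trans (List.suffix_append _ _).isInfix

/-- the path sum along a list -/
def pathPre : List (List α) → ℕ
  | [] => 0
  | [_] => 0
  | x :: y :: l => pre x y + pathPre (y :: l)

lemma chain_length_of_ne (x : List α) (l : List (List α)) :
    (chain (x :: l)).length = pathPre (x :: l) + ((x :: l).getLast (by simp)).length := by
  induction l generalizing x with
  | nil => simp [chain, pathPre]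
  | cons y l ih =>
    rw [chain_cons_cons]
    simp only [List.length_append, List.length_take, pathPre]
    rw [ih y]
    have := pre_le x y
    simp only [List.getLast_cons_cons]
    omega

/-- text of a word: occurrences -/
lemma exists_gram_of_infix {W x : List α} (d : α) (h : x <:+: W) :
    ∃ a, a + x.length ≤ W.length ∧ gram (fun k => W.getD k d) a x.length = x := by
  obtain ⟨P, Q, rfl⟩ := h
  refine ⟨P.length, by simp, ?_⟩
  apply List.ext_getElem (by simp)
  intro k hk1 hk2
  rw [gram_getElem]
  have hk : k < x.length := hk2
  simp [List.getD, List.getElem?_append, hk, List.append_assoc]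

end Vale.Agent.Lib.P333K
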