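import Vale.Agent.Lib.P333K.Reroute

/-! The periodic word of a cycle of a cycle cover, and enumeration of orbits. -/

namespace Vale.Agent.Lib.P333K

variable {α : Type*} [DecidableEq α] {ι : Type*}

section Word

variable (s : ι → List α) (σ : ι → ι) (i0 : ι) (d : α)

/-- the prefix cost of the `j`-th arc of the walk from `i0` -/
def arcLen (j : ℕ) : ℕ := pre (s (σ^[j] i0)) (s (σ^[j + 1] i0))

/-- the position of the `j`-th string of the walk from `i0` -/
def posn (j : ℕ) : ℕ := ∑ l ∈ Finset.range j, arcLen s σ i0 l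

/-- the index of the string of the walk whose private part holds position `y` -/
def idx (y : ℕ) : ℕ := Nat.findGreatest (fun j => posn s σ i0 j ≤ y) y

/-- the word read along the walk -/
def walkWord (y : ℕ) : α :=
  (s (σ^[idx s σ i0 y] i0)).getD (y - posn s σ i0 (idx s σ i0 y)) d

@[simp] lemma posn_zero : posn s σ i0 0 = 0 := by simp [posn]

lemma posn_succ (j : ℕ) : posn s σ i0 (j + 1) = posn s σ i0 j + arcLen s σ i0 j := by
  simp [posn, Finset.sum_range_succ]

variable {s} (hne : ∀ i, s i ≠ [])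
include hne

lemma arcLen_pos (j : ℕ) : 0 < arcLen s σ i0 j := pre_pos (hne _) (hne _)

lemma posn_lt {j k : ℕ} (h : j < k) : posn s σ i0 j < posn s σ i0 k := by
  induction h with
  | refl =>
    rw [posn_succ]
    have := arcLen_pos σ i0 hne j
    omega
  | step _ ih =>
    rw [posn_succ]
    have := arcLen_pos σ i0 hne ‹_›
    omega

lemma le_posn (j : ℕ) : j ≤ posn s σ i0 j := by
  induction j with
  | zero => simp
  | succ j ih =>
    rw [posn_succ]
    have := arcLen_pos σ i0 hne j
    omega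

lemma idx_spec (y : ℕ) :
    posn s σ i0 (idx s σ i0 y) ≤ y ∧ y < posn s σ i0 (idx s σ i0 y + 1) := by
  constructor
  · exact Nat.findGreatest_spec (P := fun j => posn s σ i0 j ≤ y) (m := 0) (Nat.zero_le _) (by simp)
  · by_contra h
    push Not at h
    have h1 : idx s σ i0 y + 1 ≤ y := (le_posn σ i0 hne _).trans h
    have h2 : idx s σ i0 y + 1 ≤ idx s σ i0 y :=
      Nat.le_findGreatest (P := fun j => posn s σ i0 j ≤ y) h1 h
    omega

lemma idx_eq {j y : ℕ} (h1 : posn s σ i0 j ≤ y) (h2 : y < posn s σ i0 (j + 1)) :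
    idx s σ i0 y = j := by
  have h3 : j ≤ idx s σ i0 y :=
    Nat.le_findGreatest (P := fun j => posn s σ i0 j ≤ y) ((le_posn σ i0 hne _).trans h1) h1
  by_contra hne'
  have h4 : j + 1 ≤ idx s σ i0 y := by omega
  have h5 := (idx_spec σ i0 hne y).1
  rcases lt_or_eq_of_le h4 with h6 | h6
  · have := posn_lt σ i0 hne h6
    omega
  · rw [← h6] at h5
    omega

lemma walkWord_occ (k : ℕ) : ∀ j, k < (s (σ^[j] i0)).length →
    walkWord s σ i0 d (posn s σ i0 j + k) = (s (σ^[j] i0)).getD k d := by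
  induction k using Nat.strong_induction_on with
  | _ k ih =>
    intro j hk
    by_cases hka : k < arcLen s σ i0 j
    · unfold walkWord
      rw [idx_eq σ i0 hne (j := j) (by omega) (by rw [posn_succ]; omega)]
      simp
    · set a := arcLen s σ i0 j with ha
      have ha0 : 0 < a := arcLen_pos σ i0 hne j
      have hx := hne (σ^[j] i0)
      have hy := hne (σ^[j + 1] i0)
      obtain ⟨h1, h2, h3⟩ := ov_prop hx hy
      have hadd := pre_add_ov hx hy
      have hapre : pre (s (σ^[j] i0)) (s (σ^[j + 1] i0)) = a := rfl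
      rw [hapre] at hadd
      have e : posn s σ i0 j + k = posn s σ i0 (j + 1) + (k - a) := by
        rw [posn_succ]
        omega
      rw [e, ih (k - a) (by omega) (j + 1) (by omega)]
      -- the overlap identifies the letters
      have h4 : (s (σ^[j] i0)).drop a = (s (σ^[j + 1] i0)).take (ov (s (σ^[j] i0)) (s (σ^[j + 1] i0))) := by
        rw [← h3]
        congr 1
      have h5 : ((s (σ^[j] i0)).drop a).getD (k - a) d = (s (σ^[j] i0)).getD k d := by
        rw [List.getD_eq_getElem?_getD, List.getD_eq_getElem?_getD, List.getElem?_drop]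
        congr 2
        omega
      have h6 : ((s (σ^[j + 1] i0)).take (ov (s (σ^[j] i0)) (s (σ^[j + 1] i0)))).getD (k - a) d
          = (s (σ^[j + 1] i0)).getD (k - a) d := by
        rw [List.getD_eq_getElem?_getD, List.getD_eq_getElem?_getD, List.getElem?_take_of_lt (by omega)]
      rw [← h5, h4, h6]

lemma gram_walkWord (j : ℕ) :
    gram (walkWord s σ i0 d) (posn s σ i0 j) (s (σ^[j] i0)).length = s (σ^[j] i0) := by
  apply List.ext_getElem (by simp)
  intro k hk1 hk2
  rw [gram_getElem, walkWord_occ σ i0 d hne k j hk2]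
  simp [List.getD_eq_getElem?_getD, hk2]

lemma walkWord_eq_of_lt {y : ℕ} :
    walkWord s σ i0 d y = (s (σ^[idx s σ i0 y] i0)).getD (y - posn s σ i0 (idx s σ i0 y)) d := rfl

/-- the walk word is periodic when the walk closes after `n` steps -/
lemma walkWord_periodic {n : ℕ} (hn : σ^[n] i0 = i0) (y : ℕ) :
    walkWord s σ i0 d (y + posn s σ i0 n) = walkWord s σ i0 d y := by
  have hx : ∀ j, σ^[j + n] i0 = σ^[j] i0 := by
    intro j
    rw [Function.iterate_add_apply, hn]
  have harc : ∀ j, arcLen s σ i0 (j + n) = arcLen s σ i0 j := by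
    intro j
    unfold arcLen
    rw [hx j, show j + n + 1 = (j + 1) + n by ring, hx (j + 1)]
  have hpos : ∀ j, posn s σ i0 (j + n) = posn s σ i0 j + posn s σ i0 n := by
    intro j
    induction j with
    | zero => simp
    | succ j ih =>
      rw [show j + 1 + n = (j + n) + 1 by ring, posn_succ, ih, posn_succ, harc]
      ring
  obtain ⟨h1, h2⟩ := idx_spec σ i0 hne y
  set j := idx s σ i0 y with hj
  set k := y - posn s σ i0 j with hk
  have hy : y = posn s σ i0 j + k := by omega
  have hka : k < arcLen s σ i0 j := by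
    rw [posn_succ] at h2
    omega
  have hkl : k < (s (σ^[j] i0)).length :=
    lt_of_lt_of_le hka (pre_le _ _)
  have e : y + posn s σ i0 n = posn s σ i0 (j + n) + k := by
    rw [hpos]
    omega
  rw [e, walkWord_occ σ i0 d hne k (j + n) (by rw [hx]; exact hkl), hx, hy,
    walkWord_occ σ i0 d hne k j hkl]

/-- windows of the walk word of length `t + 1` lie in one string if the overlaps are at least `t` -/
lemma window_infix {t : ℕ} (ht : ∀ j, t ≤ ov (s (σ^[j] i0)) (s (σ^[j + 1] i0))) (z : ℕ) :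
    gram (walkWord s σ i0 d) z (t + 1) <:+: s (σ^[idx s σ i0 z] i0) := by
  obtain ⟨h1, h2⟩ := idx_spec σ i0 hne z
  set j := idx s σ i0 z with hj
  have h3 := ht j
  have h4 := pre_add_ov (hne (σ^[j] i0)) (hne (σ^[j + 1] i0))
  have h5 : arcLen s σ i0 j = pre (s (σ^[j] i0)) (s (σ^[j + 1] i0)) := rfl
  rw [posn_succ] at h2
  have h6 := gram_infix (walkWord s σ i0 d) (a := posn s σ i0 j) (z := z) (L := t + 1)
    (M := (s (σ^[j] i0)).length) h1 (by omega)
  rwa [gram_walkWord σ i0 d hne j] at h6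

end Word

section Orbit

variable [Fintype ι] [DecidableEq ι]

/-- the cycle of `i` -/
def orb (σ : Equiv.Perm ι) (i : ι) : Finset ι := Finset.univ.filter fun j => σ.SameCycle i j

omit [DecidableEq ι] in
lemma periodic_perm (σ : Equiv.Perm ι) (i : ι) : (⇑σ)^[orderOf σ] i = i := by
  classical
  rw [Equiv.Perm.iterate_eq_pow, pow_orderOf_eq_one]
  rfl

omit [DecidableEq ι] in
lemma minPer_pos (σ : Equiv.Perm ι) (i : ι) : 0 < Function.minimalPeriod σ i :=
  Function.IsPeriodicPt.minimalPeriod_pos (orderOf_pos σ) (periodic_perm σ i)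

lemma mem_orb_iterate (σ : Equiv.Perm ι) (i : ι) (j : ℕ) : (⇑σ)^[j] i ∈ orb σ i := by
  simp only [orb, Finset.mem_filter, Finset.mem_univ, true_and]
  rw [Equiv.Perm.iterate_eq_pow]
  exact (Equiv.Perm.SameCycle.refl σ i).pow_right

lemma exists_iterate_of_mem_orb (σ : Equiv.Perm ι) {i y : ι} (hy : y ∈ orb σ i) :
    ∃ j, j < Function.minimalPeriod σ i ∧ (⇑σ)^[j] i = y := by
  simp only [orb, Finset.mem_filter, Finset.mem_univ, true_and] at hy
  obtain ⟨m, hm⟩ := hy.exists_nat_pow_eq
  refine ⟨m % Function.minimalPeriod σ i, Nat.mod_lt _ (minPer_pos σ i), ?_⟩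
  rw [Function.iterate_mod_minimalPeriod_eq, Equiv.Perm.iterate_eq_pow, hm]

lemma sum_orb (σ : Equiv.Perm ι) (i : ι) {M : Type*} [AddCommMonoid M] (G : ι → M) :
    ∑ y ∈ orb σ i, G y = ∑ j ∈ Finset.range (Function.minimalPeriod σ i), G ((⇑σ)^[j] i) := by
  symm
  apply Finset.sum_bij (fun j _ => (⇑σ)^[j] i)
  · intro j _
    exact mem_orb_iterate σ i j
  · intro a ha b hb h
    exact Function.iterate_injOn_Iio_minimalPeriod (by simpa using ha) (by simpa using hb) h
  · intro y hy
    obtain ⟨j, hj, rfl⟩ := exists_iterate_of_mem_orb σ hy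
    exact ⟨j, by simpa using hj, rfl⟩
  · intro _ _
    rfl

lemma card_orb (σ : Equiv.Perm ι) (i : ι) : (orb σ i).card = Function.minimalPeriod σ i := by
  have := sum_orb σ i (fun _ => (1 : ℕ))
  simpa using this

lemma orb_eq_of_mem (σ : Equiv.Perm ι) {i j : ι} (h : j ∈ orb σ i) : orb σ j = orb σ i := by
  ext y
  simp only [orb, Finset.mem_filter, Finset.mem_univ, true_and] at h ⊢
  exact ⟨fun h2 => h.trans h2, fun h2 => h.symm.trans h2⟩

lemma mem_orb_self (σ : Equiv.Perm ι) (i : ι) : i ∈ orb σ i := by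
  simp [orb, Equiv.Perm.SameCycle.refl]

lemma orb_invariant (σ : Equiv.Perm ι) {i y : ι} (h : y ∈ orb σ i) : σ y ∈ orb σ i := by
  simp only [orb, Finset.mem_filter, Finset.mem_univ, true_and] at h ⊢
  exact Equiv.Perm.sameCycle_apply_right.2 h

lemma mem_cyclesOf {σ : Equiv.Perm ι} {c : Finset ι} : c ∈ cyclesOf σ ↔ ∃ i, orb σ i = c := by
  simp [cyclesOf, orb]

lemma orb_of_mem_cycles {σ : Equiv.Perm ι} {c : Finset ι} (hc : c ∈ cyclesOf σ) {i : ι}
    (hi : i ∈ c) : orb σ i = c := by
  obtain ⟨j, rfl⟩ := mem_cyclesOf.1 hc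
  exact orb_eq_of_mem σ hi

lemma disjoint_of_cycles {σ : Equiv.Perm ι} {c c' : Finset ι} (hc : c ∈ cyclesOf σ)
    (hc' : c' ∈ cyclesOf σ) (hne : c ≠ c') : Disjoint c c' := by
  rw [Finset.disjoint_left]
  intro y hy hy'
  exact hne ((orb_of_mem_cycles hc hy).symm.trans (orb_of_mem_cycles hc' hy'))

lemma sum_cycles (σ : Equiv.Perm ι) {M : Type*} [AddCommMonoid M] (G : ι → M) :
    ∑ c ∈ cyclesOf σ, ∑ i ∈ c, G i = ∑ i, G i := by
  rw [← Finset.sum_fiberwise_of_maps_to (s := Finset.univ) (t := cyclesOf σ) (g := orb σ)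
    (fun i _ => mem_cyclesOf.2 ⟨i, rfl⟩)]
  apply Finset.sum_congr rfl
  intro c hc
  apply Finset.sum_congr _ (fun _ _ => rfl)
  ext y
  simp only [Finset.mem_filter, Finset.mem_univ, true_and]
  constructor
  · intro hy
    exact orb_of_mem_cycles hc hy
  · rintro rfl
    exact mem_orb_self σ y

end Orbit

end Vale.Agent.Lib.P333K
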