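import Mathlib

/-! Definitions for the shortest common superstring statements. -/

namespace Vale.Agent.Lib.P333K

variable {α : Type*} [DecidableEq α]

/-- The overlap of `x` with `y`: the largest `k` smaller than both lengths such that the suffix of
`x` of length `k` equals the prefix of `y` of length `k` (`0` if there is none). -/
def ov (x y : List α) : ℕ :=
  Nat.findGreatest
    (fun k => k < x.length ∧ k < y.length ∧ x.drop (x.length - k) = y.take k) x.length

/-- The prefix cost of the arc from `x` to `y`: the length of `x` minus the overlap. -/
def pre (x y : List α) : ℕ := x.length - ov x y

/-- The string obtained by merging consecutive members of a list along their overlaps. -/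
def chain : List (List α) → List α
  | [] => []
  | [x] => x
  | x :: y :: l => x.take (pre x y) ++ chain (y :: l)

/-- The sum of the overlaps of consecutive members of a list of strings. -/
def ovSum : List (List α) → ℕ
  | [] => 0
  | [_] => 0
  | x :: y :: l => ov x y + ovSum (y :: l)

variable {ι : Type*} [Fintype ι] [DecidableEq ι]

/-- The cost of a cycle cover (a permutation) of a family of strings: the sum of the prefix costs of
its arcs. -/
def coverCost (s : ι → List α) (σ : Equiv.Perm ι) : ℕ := ∑ i, pre (s i) (s (σ i))

/-- The cycles of a permutation, as a set of finite sets (fixed points give singletons). -/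
def cyclesOf (σ : Equiv.Perm ι) : Finset (Finset ι) :=
  Finset.univ.image fun i => Finset.univ.filter fun j => σ.SameCycle i j

/-- The cost (period) of one cycle. -/
def cycleCost (s : ι → List α) (σ : Equiv.Perm ι) (c : Finset ι) : ℕ :=
  ∑ i ∈ c, pre (s i) (s (σ i))

/-- The strings of a cycle of length `n`, cut at the arc from `i` to `σ i`: it starts with
`σ i` and ends with `i`. -/
def openedAt (s : ι → List α) (σ : Equiv.Perm ι) (i : ι) (n : ℕ) : List (List α) :=
  (List.range n).map fun j => s (σ^[j + 1] i)

/-- The representative string of a cycle `c` cut at the arc from `i` to `σ i`: the merge of its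
strings along the overlaps of the remaining arcs. -/
def opened (s : ι → List α) (σ : Equiv.Perm ι) (i : ι) (c : Finset ι) : List α :=
  chain (openedAt s σ i c.card)

end Vale.Agent.Lib.P333K
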