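import Vale.Agent.Lib.P333K.Pipeline
import Vale.Agent.Lib.P333.MaxAtsp

/-! An explicit algorithm for the shortest common superstring problem with ratio `27/11 < 2.4546`:
minimum cycle cover, cut each cycle at a weakest arc, reduce, then the self-contained `6/11`
approximation for maximum Hamiltonian path of `Lib/P333/MaxAtsp.lean` on the overlaps. -/

set_option linter.unusedSectionVars false
set_option linter.unusedVariables false

namespace Vale.Agent.Lib.P333K

open Vale.Agent.Lib.P333.Atsp

variable {α : Type*} [DecidableEq α]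

open Classical in
/-- Step 0: remove empty strings and strings that are factors of other strings of the family. -/
noncomputable def reduceFam (S : Finset (List α)) : Finset (List α) :=
  S.filter (fun x => x ≠ [] ∧ ∀ y ∈ S, x <:+: y → x = y)

lemma mem_reduceFam {S : Finset (List α)} {x : List α} :
    x ∈ reduceFam S ↔ x ∈ S ∧ x ≠ [] ∧ ∀ y ∈ S, x <:+: y → x = y := by
  classical
  simp [reduceFam]

/-- Every nonempty string of the family is a factor of a member of the reduced family. -/
lemma exists_mem_reduceFam {S : Finset (List α)} {x : List α} (hx : x ∈ S) (hne : x ≠ []) :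
    ∃ y ∈ reduceFam S, x <:+: y := by
  classical
  have hne' : (S.filter (fun y => x <:+: y)).Nonempty := ⟨x, by simp [hx]⟩
  obtain ⟨y, hy, hmax⟩ := Finset.exists_max_image _ List.length hne'
  have hy' := Finset.mem_filter.mp hy
  refine ⟨y, mem_reduceFam.mpr ⟨hy'.1, ?_, ?_⟩, hy'.2⟩
  · rintro rfl
    exact hne (List.eq_nil_of_infix_nil hy'.2)
  · intro z hz hyz
    have h1 := hmax z (by simp [hz, hy'.2.trans hyz])
    exact List.IsInfix.eq_of_length hyz (le_antisymm hyz.length_le h1)

/-- The string of the member `i` of a family given as a finset. -/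
abbrev strOf {T : Finset (List α)} (i : T) : List α := i.val

/-- The representatives: each cycle of the cover cut at the arc chosen by `w`, merged. -/
def reps {T : Finset (List α)} (σ : Equiv.Perm T) (w : Finset T → T) : Finset (List α) :=
  (cyclesOf σ).image (fun c => opened strOf σ (w c) c)

/-- The order step: the weights are the overlaps; a single node needs nothing. -/
def IsOrderOutput {κ : Type*} [Fintype κ] [DecidableEq κ] (w : κ → κ → ℕ) (out : List κ) : Prop :=
  (Fintype.card κ ≤ 1 ∧ IsHam out) ∨ IsAtspRun w out

/-- A run of the algorithm on the family `S` with output `out`: `out` is empty if no nonempty string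
is present; otherwise:
1. `reduceFam S`: drop empty strings and strings inside other strings;
2. `σ`: a minimum cost cycle cover, i.e. an optimal solution of the assignment problem with costs
   `|x| - ov x y` (self-loops allowed);
3. `w`: a weakest arc on each cycle; `reps σ w`: the cycles cut at these arcs, merged along overlaps;
4. `reduceFam (reps σ w)`: reduce these strings again;
5. `order`: the output of a run of the max Hamiltonian path algorithm `IsAtspRun` on the reduced
   representatives with the overlaps as weights;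
6. `out`: the merge of the representatives along `order`. -/
def IsRun (S : Finset (List α)) (out : List α) : Prop :=
  (reduceFam S = ∅ ∧ out = []) ∨
  ∃ (σ : Equiv.Perm (reduceFam S)) (w : Finset (reduceFam S) → reduceFam S)
    (order : List (reduceFam (reps σ w))),
    (∀ τ : Equiv.Perm (reduceFam S), coverCost strOf σ ≤ coverCost strOf τ) ∧
    (∀ c ∈ cyclesOf σ, w c ∈ c ∧
      ∀ i ∈ c, ov (strOf (w c)) (strOf (σ (w c))) ≤ ov (strOf i) (strOf (σ i))) ∧
    IsOrderOutput (fun i j : reduceFam (reps σ w) => ov i.val j.val) order ∧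
    out = chain (order.map Subtype.val)

lemma ovSum_map {T : Finset (List α)} (l : List T) :
    ovSum (l.map Subtype.val) = pathVal (fun i j : T => ov i.val j.val) l := by
  induction l with
  | nil => rfl
  | cons x l ih =>
    cases l with
    | nil => rfl
    | cons y l =>
      simp only [List.map_cons, ovSum, pathVal_cons_cons]
      simp only [List.map_cons] at ih
      rw [ih]

/-- **Soundness of a run.** -/
theorem run_bound {S : Finset (List α)} {out : List α} (h : IsRun S out) :
    (∀ x ∈ S, x <:+: out) ∧
      ∀ W : List α, (∀ x ∈ S, x <:+: W) → 11 * out.length ≤ 27 * W.length := by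
  classical
  rcases h with ⟨h0, rfl⟩ | ⟨σ, w, order, hmin, hw, hord, rfl⟩
  · constructor
    · intro x hx
      by_cases hne : x = []
      · rw [hne]
      · obtain ⟨y, hy, _⟩ := exists_mem_reduceFam hx hne
        rw [h0] at hy
        simp at hy
    · intro W _
      simp
  -- the family
  let T := reduceFam S
  have hne : ∀ i : T, strOf i ≠ [] := fun i => (mem_reduceFam.mp i.2).2.1
  have hsf : ∀ i j : T, i ≠ j → ¬ strOf i <:+: strOf j := by
    intro i j hij hinf
    exact hij (Subtype.ext ((mem_reduceFam.mp i.2).2.2 _ (mem_reduceFam.mp j.2).1 hinf))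
  -- the order
  have hordH : IsHam order ∧ ∀ l : List (reduceFam (reps σ w)), IsHam l →
      6 * pathVal (fun i j : reduceFam (reps σ w) => ov i.val j.val) l
        ≤ 11 * pathVal (fun i j : reduceFam (reps σ w) => ov i.val j.val) order := by
    rcases hord with ⟨hc, hH⟩ | hrun
    · refine ⟨hH, ?_⟩
      intro l hl
      have hlen : l.length ≤ 1 := by
        have := hl.1.length_le_card
        omega
      have : pathVal (fun i j : reduceFam (reps σ w) => ov i.val j.val) l = 0 := by
        match l, hlen with
        | [], _ => rfl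
        | [_], _ => rfl
        | _ :: _ :: _, h => simp at h
      omega
    · exact atspRun_bound hrun
  set P := order.map Subtype.val with hPdef
  have hPmem : ∀ z, z ∈ P ↔ z ∈ reduceFam (reps σ w) := by
    intro z
    simp only [hPdef, List.mem_map]
    constructor
    · rintro ⟨a, _, rfl⟩
      exact a.2
    · intro hz
      exact ⟨⟨z, hz⟩, hordH.1.2 _, rfl⟩
  have hnd : P.Nodup := hordH.1.1.map Subtype.val_injective
  have hP : ∀ z ∈ P, ∃ c ∈ cyclesOf σ, z = opened strOf σ (w c) c := by
    intro z hz
    have := (mem_reduceFam.mp ((hPmem z).mp hz)).1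
    obtain ⟨c, hc, rfl⟩ := Finset.mem_image.mp this
    exact ⟨c, hc, rfl⟩
  have hcov : ∀ c ∈ cyclesOf σ, ∃ z ∈ P, opened strOf σ (w c) c <:+: z := by
    intro c hc
    have hne2 : opened strOf σ (w c) c ≠ [] := by
      intro h0
      have h2 := infix_opened' strOf hne σ w hc (hw c hc).1 (hw c hc).1
      rw [h0] at h2
      exact hne _ (List.eq_nil_of_infix_nil h2)
    obtain ⟨y, hy, hinf⟩ := exists_mem_reduceFam (S := reps σ w)
      (Finset.mem_image_of_mem (fun c => opened strOf σ (w c) c) hc) hne2
    exact ⟨y, (hPmem y).mpr hy, hinf⟩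
  have hsfP : ∀ z ∈ P, ∀ z' ∈ P, z ≠ z' → ¬ z <:+: z' := by
    intro z hz z' hz' hzz hinf
    have h1 := mem_reduceFam.mp ((hPmem z).mp hz)
    have h2 := mem_reduceFam.mp ((hPmem z').mp hz')
    exact hzz (h1.2.2 z' h2.1 hinf)
  have happ : ∀ P' : List (List α), P'.Perm P → ((6 / 11 : ℝ)) * (ovSum P' : ℝ) ≤ (ovSum P : ℝ) := by
    intro P' hperm
    have hmem : ∀ z ∈ P', z ∈ reduceFam (reps σ w) := fun z hz =>
      (hPmem z).mp (hperm.subset hz)
    let l' : List (reduceFam (reps σ w)) := P'.pmap (fun z hz => ⟨z, hz⟩) hmem
    have hl'map : l'.map Subtype.val = P' := by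
      simp [l', List.map_pmap]
    have hl'H : IsHam l' := by
      refine ⟨?_, ?_⟩
      · have : (l'.map Subtype.val).Nodup := by rw [hl'map]; exact hperm.nodup_iff.mpr hnd
        exact List.Nodup.of_map _ this
      · intro x
        have : x.val ∈ l'.map Subtype.val := by
          rw [hl'map]; exact hperm.mem_iff.mpr ((hPmem _).mpr x.2)
        obtain ⟨a, ha, hax⟩ := List.mem_map.mp this
        rwa [← Subtype.ext hax]
    have h6 := hordH.2 l' hl'H
    rw [← ovSum_map, ← ovSum_map, hl'map] at h6
    have h6' : (6 : ℝ) * (ovSum P' : ℝ) ≤ 11 * (ovSum P : ℝ) := by exact_mod_cast h6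
    linarith
  have hfam : ∀ x ∈ S, x = [] ∨ ∃ i : T, x <:+: strOf i := by
    intro x hx
    by_cases hx0 : x = []
    · exact Or.inl hx0
    · obtain ⟨y, hy, hinf⟩ := exists_mem_reduceFam hx hx0
      exact Or.inr ⟨⟨y, hy⟩, hinf⟩
  skip
  have hmain := pipeline_bound strOf hne hsf σ hmin w hw (6 / 11) (by norm_num) (by norm_num)
    P hnd hP hcov hsfP happ
  constructor
  · intro x hx
    rcases hfam x hx with rfl | ⟨i, hi⟩
    · exact List.nil_infix
    · exact hi.trans (hmain.1 i)
  · intro W hW
    have h1 := (hmain.2 W (fun i => hW _ (mem_reduceFam.mp i.2).1)).2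
    have h2 : (11 : ℝ) * ((chain P).length : ℝ) ≤ 27 * (W.length : ℝ) := by
      have : ((3 : ℝ) - 6 / 11) = 27 / 11 := by norm_num
      rw [this] at h1
      linarith
    exact_mod_cast h2

/-- **Runs exist.** -/
theorem exists_run (S : Finset (List α)) : ∃ out, IsRun S out := by
  classical
  by_cases h0 : reduceFam S = ∅
  · exact ⟨[], Or.inl ⟨h0, rfl⟩⟩
  haveI : Nonempty (reduceFam S) := by
    obtain ⟨x, hx⟩ := Finset.nonempty_iff_ne_empty.mpr h0
    exact ⟨⟨x, hx⟩⟩
  obtain ⟨σ, hmin, w, hw⟩ := exists_min_cover (strOf (T := reduceFam S))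
  have hord : ∃ order : List (reduceFam (reps σ w)),
      IsOrderOutput (fun i j : reduceFam (reps σ w) => ov i.val j.val) order := by
    by_cases hc : Fintype.card (reduceFam (reps σ w)) ≤ 1
    · refine ⟨(Finset.univ : Finset (reduceFam (reps σ w))).toList, Or.inl ⟨hc, ?_⟩⟩
      exact ⟨Finset.nodup_toList _, by simp⟩
    · obtain ⟨out, hout⟩ := exists_atspRun (fun i j : reduceFam (reps σ w) => ov i.val j.val)
        (by omega)
      exact ⟨out, Or.inr hout⟩
  obtain ⟨order, hO⟩ := hord
  exact ⟨_, Or.inr ⟨σ, w, order, hmin, hw, hO, rfl⟩⟩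

end Vale.Agent.Lib.P333K
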