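import Mathlib

/-! Words read from periodic functions: factors, minimal rotations, unbordered rotations. -/

namespace Vale.Agent.Lib.P333K

variable {α : Type*}

/-- the word of length `L` read from `u` at position `z` -/
def gram (u : ℕ → α) (z L : ℕ) : List α := (List.range L).map (fun i => u (z + i))

@[simp] lemma gram_length (u : ℕ → α) (z L : ℕ) : (gram u z L).length = L := by
  simp [gram]

lemma gram_getElem (u : ℕ → α) (z L k : ℕ) (hk : k < (gram u z L).length) :
    (gram u z L)[k] = u (z + k) := by
  simp [gram]

lemma gram_ext {u v : ℕ → α} {z z' L : ℕ}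
    (h : gram u z L = gram v z' L) (k : ℕ) (hk : k < L) : u (z + k) = v (z' + k) := by
  have h1 : (gram u z L)[k]'(by simpa using hk) = (gram v z' L)[k]'(by simpa using hk) := by
    congr 1
  simpa [gram_getElem] using h1

lemma gram_eq_of {u v : ℕ → α} {z z' L : ℕ}
    (h : ∀ k, k < L → u (z + k) = v (z' + k)) : gram u z L = gram v z' L := by
  apply List.ext_getElem (by simp)
  intro k hk1 hk2
  rw [gram_getElem, gram_getElem]
  exact h k (by simpa using hk1)

lemma gram_add (u : ℕ → α) (z a b : ℕ) :
    gram u z (a + b) = gram u z a ++ gram u (z + a) b := by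
  apply List.ext_getElem (by simp)
  intro k hk1 hk2
  rw [gram_getElem]
  by_cases h : k < a
  · rw [List.getElem_append_left (by simpa using h), gram_getElem]
  · rw [List.getElem_append_right (by simpa using h), gram_getElem]
    simp only [gram_length]
    congr 1
    omega

lemma gram_take (u : ℕ → α) (z L t : ℕ) (h : t ≤ L) :
    (gram u z L).take t = gram u z t := by
  apply List.ext_getElem (by simp; omega)
  intro k hk1 hk2
  rw [List.getElem_take, gram_getElem, gram_getElem]

lemma gram_drop_one (u : ℕ → α) (z L : ℕ) :
    (gram u z (L + 1)).drop 1 = gram u (z + 1) L := by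
  have := gram_add u z 1 L
  rw [Nat.add_comm L 1, this]
  simp [gram]

/-- a periodic function: rewriting with multiples of the period -/
lemma periodic_add_mul {u : ℕ → α} {p : ℕ} (hper : ∀ k, u (k + p) = u k) (k m : ℕ) :
    u (k + m * p) = u k := by
  induction m with
  | zero => simp
  | succ m ih =>
    have : k + (m + 1) * p = k + m * p + p := by ring
    rw [this, hper, ih]

/-- if two periodic functions agree on a window of the period of the first, they agree from there -/
lemma agree_of_window {u v : ℕ → α} {p : ℕ} (hu : ∀ k, u (k + p) = u k) (hv : ∀ k, v (k + p) = v k)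
    (hp : 0 < p) {a b : ℕ} (h : ∀ k, k < p → u (a + k) = v (b + k)) (k : ℕ) :
    u (a + k) = v (b + k) := by
  have h1 : k % p < p := Nat.mod_lt _ hp
  have h2 : k = k % p + (k / p) * p := by
    have := Nat.mod_add_div k p
    nlinarith [Nat.mul_comm p (k / p)]
  have h3 : u (a + k) = u (a + k % p) := by
    conv_lhs => rw [h2]
    rw [← add_assoc, periodic_add_mul hu]
  have h4 : v (b + k) = v (b + k % p) := by
    conv_lhs => rw [h2]
    rw [← add_assoc, periodic_add_mul hv]
  rw [h3, h4]
  exact h _ h1

section Order

variable [LinearOrder α]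

lemma lex_of_append_left (x a b : List α) (h : List.Lex (· < ·) (x ++ a) (x ++ b)) :
    List.Lex (· < ·) a b := by
  induction x with
  | nil => simpa using h
  | cons y x ih =>
    simp only [List.cons_append] at h
    exact ih ((List.lex_cons_iff).1 h)

lemma le_of_append_le_append_left' (x a b : List α) (h : x ++ a ≤ x ++ b) : a ≤ b := by
  rcases le_iff_lt_or_eq.1 h with h1 | h1
  · exact le_of_lt (lex_of_append_left x a b h1)
  · exact le_of_eq (List.append_cancel_left h1)

lemma lex_of_append_right (x : List α) :
    ∀ (a b : List α), a.length = b.length → List.Lex (· < ·) (a ++ x) (b ++ x) →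
      List.Lex (· < ·) a b := by
  intro a
  induction a with
  | nil =>
    intro b h _
    cases b with
    | nil => exact absurd (show x < x from by simpa using ‹List.Lex (· < ·) ([] ++ x) ([] ++ x)›) (lt_irrefl x)
    | cons _ _ => simp at h
  | cons y a ih =>
    intro b h hle
    cases b with
    | nil => simp at h
    | cons z b =>
      simp only [List.cons_append] at hle
      cases hle with
      | cons h1 => exact List.Lex.cons (ih b (by simpa using h) h1)
      | rel h1 => exact List.Lex.rel h1

lemma le_of_append_le_append_right' (x a b : List α) (hl : a.length = b.length)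
    (h : a ++ x ≤ b ++ x) : a ≤ b := by
  rcases le_iff_lt_or_eq.1 h with h1 | h1
  · exact le_of_lt (lex_of_append_right x a b hl h1)
  · exact le_of_eq (List.append_cancel_right h1)

end Order

/-- every primitive periodic function has an unbordered window of length its period -/
theorem exists_unbordered {u : ℕ → α} {p : ℕ} (hp : 0 < p) (hper : ∀ k, u (k + p) = u k)
    (hprim : ∀ d, 0 < d → d < p → ∃ k, u (k + d) ≠ u k) :
    ∃ z0, ∀ q, 0 < q → q < p → ¬ ∀ k, k + q < p → u (z0 + k + q) = u (z0 + k) := by
  classical
  let _ : LinearOrder α := linearOrderOfSTO WellOrderingRel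
  obtain ⟨z0, -, hmin⟩ := Finset.exists_min_image (Finset.range p) (fun z => gram u z p)
    ⟨0, by simpa using hp⟩
  have hmin' : ∀ z, gram u z0 p ≤ gram u z p := by
    intro z
    have h1 : z % p < p := Nat.mod_lt _ hp
    have h2 := hmin (z % p) (by simpa using h1)
    have h3 : gram u (z % p) p = gram u z p := by
      apply gram_eq_of
      intro k _
      have : z + k = z % p + k + (z / p) * p := by
        have := Nat.mod_add_div z p
        nlinarith [Nat.mul_comm p (z / p)]
      rw [this, periodic_add_mul hper]
    rwa [h3] at h2
  refine ⟨z0, ?_⟩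
  intro q hq hqp hb
  set b := p - q with hbdef
  have hb0 : 0 < b := by omega
  have hbp : b < p := by omega
  have hpq : p = b + q := by omega
  -- x = gram z0 b = gram (z0 + q) b
  have hx : gram u z0 b = gram u (z0 + q) b := by
    apply gram_eq_of
    intro k hk
    have := hb k (by omega)
    rw [show z0 + q + k = z0 + k + q by ring]
    exact this.symm
  -- r = x ++ u' = v' ++ x
  have hr1 : gram u z0 p = gram u z0 b ++ gram u (z0 + b) q := by
    rw [hpq, gram_add]
  have hr2 : gram u z0 p = gram u z0 q ++ gram u z0 b := by
    rw [hpq, Nat.add_comm b q, gram_add, hx]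
  -- rotation by q : x ++ v'
  have hrq : gram u (z0 + q) p = gram u z0 b ++ gram u z0 q := by
    rw [hpq, gram_add, ← hx]
    congr 1
    apply gram_eq_of
    intro k _
    rw [show z0 + q + b + k = z0 + k + p by omega, hper]
  -- rotation by b : u' ++ x
  have hrb : gram u (z0 + b) p = gram u (z0 + b) q ++ gram u z0 b := by
    rw [hpq, Nat.add_comm b q, gram_add]
    congr 1
    apply gram_eq_of
    intro k _
    rw [show z0 + b + q + k = z0 + k + p by omega, hper]
  have h1 : gram u (z0 + b) q ≤ gram u z0 q := by
    have := hmin' (z0 + q)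
    rw [hr1, hrq] at this
    exact le_of_append_le_append_left' _ _ _ this
  have h2 : gram u z0 q ≤ gram u (z0 + b) q := by
    have := hmin' (z0 + b)
    rw [hr2, hrb] at this
    exact le_of_append_le_append_right' _ _ _ (by simp) this
  have h3 : gram u (z0 + b) q = gram u z0 q := le_antisymm h1 h2
  have h4 : gram u (z0 + b) p = gram u z0 p := by
    rw [hrb, hr2, h3]
  -- so `b` is a period of `u`, impossible
  obtain ⟨k, hk⟩ := hprim b hb0 hbp
  apply hk
  have h5 : ∀ k, k < p → u (z0 + b + k) = u (z0 + k) := fun k hk => gram_ext h4 k hk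
  have h6 : ∀ j, u (z0 + (b + j)) = u (z0 + j) := by
    intro j
    have hv : ∀ k, (fun k => u (k + b)) (k + p) = (fun k => u (k + b)) k := by
      intro k
      show u (k + p + b) = u (k + b)
      rw [show k + p + b = k + b + p by ring, hper]
    have := agree_of_window (u := fun k => u (k + b)) (v := u) hv hper hp (a := z0) (b := z0)
      (fun k hk => by
        show u (z0 + k + b) = u (z0 + k)
        rw [show z0 + k + b = z0 + b + k by ring]
        exact h5 k hk) j
    have h10 : u (z0 + j + b) = u (z0 + j) := this
    rw [show z0 + (b + j) = z0 + j + b by ring]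
    exact h10
  -- transport to position `k`
  have h7 : k + (z0 + 1) * p = z0 + (k + (z0 + 1) * p - z0) := by
    have : z0 ≤ (z0 + 1) * p := by nlinarith
    omega
  have h8 := h6 (k + (z0 + 1) * p - z0)
  rw [← h7] at h8
  have h9 : z0 + (b + (k + (z0 + 1) * p - z0)) = k + b + (z0 + 1) * p := by
    have : z0 ≤ (z0 + 1) * p := by nlinarith
    omega
  rw [h9, periodic_add_mul hper, periodic_add_mul hper] at h8
  exact h8

end Vale.Agent.Lib.P333K
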