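import Vale.Agent.Lib.P333K.Cycle

/-! The key inequality `T ≤ OPT + 2 C` and the analysis of the cycle cover pipeline. -/

namespace Vale.Agent.Lib.P333K

variable {α : Type*} [DecidableEq α] {ι : Type*} [Fintype ι] [DecidableEq ι]

lemma cycleCost_orb (s : ι → List α) (σ : Equiv.Perm ι) (i : ι) :
    cycleCost s σ (orb σ i) = posn s σ i (Function.minimalPeriod σ i) := by
  unfold cycleCost posn
  rw [sum_orb σ i (fun y => pre (s y) (s (σ y)))]
  apply Finset.sum_congr rfl
  intro j _
  unfold arcLen
  rw [Function.iterate_succ_apply']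

lemma reroute' (s : ι → List α) (hne : ∀ i, s i ≠ []) (hsf : ∀ i j, i ≠ j → ¬ s i <:+: s j)
    (σ : Equiv.Perm ι) (hmin : ∀ τ : Equiv.Perm ι, coverCost s σ ≤ coverCost s τ)
    (K : Finset ι) (hinv : ∀ i ∈ K, σ i ∈ K) (v : ℕ → α) (q : ℕ) (hq : 0 < q)
    (hv : ∀ k, v (k + q) = v k) (ha : ∀ i ∈ K, ∃ a, gram v a (s i).length = s i) :
    ∑ i ∈ K, pre (s i) (s (σ i)) ≤ q := by
  choose! a ha' using ha
  exact reroute s hne hsf σ hmin K hinv v q hq hv a ha'

section Classes

variable {s : ι → List α} (hne : ∀ i, s i ≠ []) (hsf : ∀ i j, i ≠ j → ¬ s i <:+: s j)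
  {σ : Equiv.Perm ι} (hmin : ∀ τ : Equiv.Perm ι, coverCost s σ ≤ coverCost s τ) (d : α)

include hne in
lemma cycleCost_pos (i : ι) : 0 < cycleCost s σ (orb σ i) := by
  rw [cycleCost_orb]
  have := posn_lt (⇑σ) i hne (minPer_pos σ i)
  simpa using this

include hne in
lemma walkWord_per (i : ι) (k : ℕ) :
    walkWord s (⇑σ) i d (k + cycleCost s σ (orb σ i)) = walkWord s (⇑σ) i d k := by
  rw [cycleCost_orb]
  exact walkWord_periodic (⇑σ) i d hne Function.iterate_minimalPeriod k

include hne in
lemma occ_in_walk (i : ι) {y : ι} (hy : y ∈ orb σ i) :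
    ∃ a, gram (walkWord s (⇑σ) i d) a (s y).length = s y := by
  obtain ⟨j, -, rfl⟩ := exists_iterate_of_mem_orb σ hy
  exact ⟨_, gram_walkWord (⇑σ) i d hne j⟩

include hne hsf hmin in
lemma walkWord_prim (i : ι) (e : ℕ) (he : 0 < e) (he2 : e < cycleCost s σ (orb σ i)) :
    ∃ k, walkWord s (⇑σ) i d (k + e) ≠ walkWord s (⇑σ) i d k := by
  by_contra h
  push Not at h
  have := reroute' s hne hsf σ hmin (orb σ i) (fun y hy => orb_invariant σ hy)
    (walkWord s (⇑σ) i d) e he h (fun y hy => occ_in_walk hne d i hy)
  unfold cycleCost at he2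
  omega

include hne hsf hmin in
lemma walkWord_dist (i j : ι) (hij : orb σ i ≠ orb σ j) (a b : ℕ) :
    ¬ ∀ k, walkWord s (⇑σ) j d (a + k) = walkWord s (⇑σ) i d (b + k) := by
  intro h
  set u0 := walkWord s (⇑σ) i d with hu0
  set u1 := walkWord s (⇑σ) j d with hu1
  have hP0 := cycleCost_pos (σ := σ) hne i
  have hP1 := cycleCost_pos (σ := σ) hne j
  have hper1 : ∀ k, u1 (k + cycleCost s σ (orb σ j)) = u1 k := walkWord_per hne d j
  have hper0 : ∀ k, u0 (k + cycleCost s σ (orb σ i)) = u0 k := walkWord_per hne d i
  have hinv : ∀ y ∈ orb σ i ∪ orb σ j, σ y ∈ orb σ i ∪ orb σ j := by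
    intro y hy
    rcases Finset.mem_union.1 hy with h1 | h1
    · exact Finset.mem_union_left _ (orb_invariant σ h1)
    · exact Finset.mem_union_right _ (orb_invariant σ h1)
  have hocc : ∀ y ∈ orb σ i ∪ orb σ j, ∃ c, gram u0 c (s y).length = s y := by
    intro y hy
    rcases Finset.mem_union.1 hy with h1 | h1
    · exact occ_in_walk hne d i h1
    · obtain ⟨c, hc⟩ := occ_in_walk (σ := σ) hne d j h1
      set P1 := cycleCost s σ (orb σ j) with hP1def
      refine ⟨b + (c + a * P1 - a), ?_⟩
      have hle : a ≤ c + a * P1 := by nlinarith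
      conv_rhs => rw [← hc]
      apply gram_eq_of
      intro k _
      have h2 := h (c + a * P1 - a + k)
      rw [show a + (c + a * P1 - a + k) = c + k + a * P1 by omega, periodic_add_mul hper1] at h2
      rw [add_assoc]
      exact h2.symm
  have h3 := reroute' s hne hsf σ hmin _ hinv u0 _ hP0 hper0 hocc
  have hdisj : Disjoint (orb σ i) (orb σ j) := by
    apply disjoint_of_cycles (mem_cyclesOf.2 ⟨i, rfl⟩) (mem_cyclesOf.2 ⟨j, rfl⟩) hij
  rw [Finset.sum_union hdisj] at h3
  unfold cycleCost at hP0 hP1 h3
  omega

end Classes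

/-- the key inequality -/
theorem key_ineq (s : ι → List α) (hne : ∀ i, s i ≠ []) (hsf : ∀ i j, i ≠ j → ¬ s i <:+: s j)
    (σ : Equiv.Perm ι) (hmin : ∀ τ : Equiv.Perm ι, coverCost s σ ≤ coverCost s τ)
    (w : Finset ι → ι)
    (hw : ∀ c ∈ cyclesOf σ, w c ∈ c ∧ ∀ i ∈ c, ov (s (w c)) (s (σ (w c))) ≤ ov (s i) (s (σ i)))
    (W : List α) (hW : ∀ i, s i <:+: W) :
    ∑ c ∈ cyclesOf σ, (ov (s (w c)) (s (σ (w c))) + 2) ≤ W.length + coverCost s σ := by
  classical
  rcases isEmpty_or_nonempty ι with hι | ⟨⟨i0⟩⟩
  · have : cyclesOf σ = ∅ := by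
      simp [cyclesOf]
    simp [this]
  obtain ⟨d, t, -⟩ := List.exists_cons_of_ne_nil (hne i0)
  have horb : ∀ c ∈ cyclesOf σ, orb σ (w c) = c := fun c hc => orb_of_mem_cycles hc (hw c hc).1
  have hcore := core_ineq W (cyclesOf σ) (fun c => walkWord s (⇑σ) (w c) d)
    (fun c => cycleCost s σ c) (fun c => ov (s (w c)) (s (σ (w c))))
    (by
      intro c hc
      have := cycleCost_pos (σ := σ) hne (w c)
      rwa [horb c hc] at this)
    (by
      intro c hc k
      have := walkWord_per (σ := σ) hne d (w c) k
      rwa [horb c hc] at this)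
    (by
      intro c hc e he he2
      rw [← horb c hc] at he2
      exact walkWord_prim hne hsf hmin d (w c) e he he2)
    (by
      intro c hc c' hc' hcc a b
      apply walkWord_dist hne hsf hmin d (w c) (w c')
      rwa [horb c hc, horb c' hc'])
    (by
      intro c hc z
      have h1 := window_infix (s := s) (⇑σ) (w c) d hne (t := ov (s (w c)) (s (σ (w c))))
        (by
          intro j
          have hm : (⇑σ)^[j] (w c) ∈ c := by
            have := mem_orb_iterate σ (w c) j
            rwa [horb c hc] at this
          rw [Function.iterate_succ_apply']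
          exact (hw c hc).2 _ hm) z
      exact h1.trans (hW _))
  have h2 : ∑ c ∈ cyclesOf σ, (ov (s (w c)) (s (σ (w c))) + 2)
      ≤ ∑ c ∈ cyclesOf σ, (ov (s (w c)) (s (σ (w c))) + 2 - cycleCost s σ c)
        + ∑ c ∈ cyclesOf σ, cycleCost s σ c := by
    rw [← Finset.sum_add_distrib]
    apply Finset.sum_le_sum
    intro c _
    omega
  have h3 : ∑ c ∈ cyclesOf σ, cycleCost s σ c = coverCost s σ := by
    unfold cycleCost coverCost
    exact sum_cycles σ (fun i => pre (s i) (s (σ i)))
  omega

lemma chain_range_append (f : ℕ → List α) (m : ℕ) (B : List (List α)) :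
    (chain ((List.range (m + 1)).map f ++ B)).length
      = ∑ j ∈ Finset.range m, pre (f j) (f (j + 1)) + (chain (f m :: B)).length := by
  induction m generalizing f with
  | zero => simp
  | succ m ih =>
    have e1 : (List.range (m + 1 + 1)).map f
        = f 0 :: (List.range (m + 1)).map (fun j => f (j + 1)) := by
      rw [List.range_succ_eq_map]
      simp [List.map_map, Function.comp_def]
    have e2 : (List.range (m + 1)).map (fun j => f (j + 1))
        = f 1 :: (List.range m).map (fun j => f (j + 1 + 1)) := by
      rw [List.range_succ_eq_map]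
      simp [List.map_map, Function.comp_def]
    have h := ih (fun j => f (j + 1))
    rw [e1]
    rw [e2] at h ⊢
    simp only [List.cons_append]
    rw [chain_cons_cons]
    simp only [List.length_append, List.length_take]
    simp only [List.cons_append] at h
    rw [h, Finset.sum_range_succ' (fun j => pre (f j) (f (j + 1)))]
    have := pre_le (f 0) (f 1)
    simp only [zero_add]
    omega

lemma chain_range_length (f : ℕ → List α) (m : ℕ) :
    (chain ((List.range (m + 1)).map f)).length
      = ∑ j ∈ Finset.range m, pre (f j) (f (j + 1)) + (f m).length := by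
  have := chain_range_append f m []
  simpa [chain] using this

/-- the length of the representative of a cycle -/
lemma opened_length (s : ι → List α) (hne : ∀ i, s i ≠ []) (σ : Equiv.Perm ι) (i : ι) :
    (opened s σ i (orb σ i)).length = cycleCost s σ (orb σ i) + ov (s i) (s (σ i)) := by
  unfold opened openedAt
  rw [card_orb, cycleCost_orb]
  obtain ⟨m, hm⟩ : ∃ m, Function.minimalPeriod σ i = m + 1 :=
    ⟨Function.minimalPeriod σ i - 1, by have := minPer_pos σ i; omega⟩
  rw [hm]
  rw [chain_range_length (fun j => s ((⇑σ)^[j + 1] i)) m]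
  have hlast : (⇑σ)^[m + 1] i = i := by
    rw [← hm]
    exact Function.iterate_minimalPeriod
  unfold posn
  rw [Finset.sum_range_succ' (fun l => arcLen s (⇑σ) i l) m]
  simp only [hlast]
  have h0 : arcLen s (⇑σ) i 0 = pre (s i) (s (σ i)) := rfl
  have h1 := pre_add_ov (hne i) (hne (σ i))
  have h2 : ∑ j ∈ Finset.range m, pre (s ((⇑σ)^[j + 1] i)) (s ((⇑σ)^[j + 1 + 1] i))
      = ∑ l ∈ Finset.range m, arcLen s (⇑σ) i (l + 1) := rfl
  rw [h2, h0]
  omega

/-- each string of a cycle occurs in the representative -/
lemma infix_opened (s : ι → List α) (hne : ∀ i, s i ≠ []) (σ : Equiv.Perm ι) (i : ι) {y : ι}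
    (hy : y ∈ orb σ i) : s y <:+: opened s σ i (orb σ i) := by
  unfold opened openedAt
  rw [card_orb]
  apply mem_chain
  · intro z hz
    obtain ⟨j, -, rfl⟩ := List.mem_map.1 hz
    exact hne _
  · obtain ⟨j, hj, rfl⟩ := exists_iterate_of_mem_orb σ hy
    apply List.mem_map.2
    have hpos := minPer_pos σ i
    rcases Nat.eq_zero_or_pos j with rfl | hj0
    · refine ⟨Function.minimalPeriod σ i - 1, List.mem_range.2 (by omega), ?_⟩
      rw [Nat.sub_add_cancel hpos, Function.iterate_minimalPeriod]
      rfl
    · refine ⟨j - 1, List.mem_range.2 (by omega), ?_⟩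
      rw [Nat.sub_add_cancel hj0]

/-- inserting loops in a walk -/
lemma walk_length (s : ι → List α) (σ : ι → ι) (m : ι → ℕ)
    (hm : ∀ i, σ^[m i] i = i) (l : List ι) :
    (chain ((l.flatMap (fun i => (List.range (m i + 1)).map (fun j => σ^[j] i))).map s)).length
      = (chain (l.map s)).length
        + (l.map (fun i => ∑ j ∈ Finset.range (m i), pre (s (σ^[j] i)) (s (σ^[j + 1] i)))).sum := by
  induction l with
  | nil => simp [chain]
  | cons i l ih =>
    have hfm : ∀ i : ι, (List.range (m i + 1)).map (fun j => s (σ^[j] i))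
        = ((List.range (m i + 1)).map (fun j => σ^[j] i)).map s := by
      intro i
      rw [List.map_map]
      rfl
    cases l with
    | nil =>
      simp only [List.flatMap_cons, List.flatMap_nil, List.append_nil, List.map_cons, List.map_nil,
        List.sum_cons, List.sum_nil, add_zero]
      rw [← hfm, chain_range_length (fun j => s (σ^[j] i)) (m i)]
      rw [hm i]
      simp only [chain]
      omega
    | cons i' l =>
      have e : ∃ B', ((i' :: l).flatMap (fun i => (List.range (m i + 1)).map (fun j => σ^[j] i))).map s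
          = s i' :: B' := by
        simp only [List.flatMap_cons, List.map_append]
        rw [List.range_succ_eq_map]
        simp only [List.map_cons, Function.iterate_zero, id_eq, List.cons_append]
        exact ⟨_, rfl⟩
      obtain ⟨B', hB'⟩ := e
      have h1 : ((i :: i' :: l).flatMap (fun i => (List.range (m i + 1)).map (fun j => σ^[j] i))).map s
          = (List.range (m i + 1)).map (fun j => s (σ^[j] i))
            ++ ((i' :: l).flatMap (fun i => (List.range (m i + 1)).map (fun j => σ^[j] i))).map s := by
        rw [List.flatMap_cons, List.map_append, ← hfm]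
      rw [h1, chain_range_append (fun j => s (σ^[j] i)) (m i)]
      rw [hm i, hB']
      rw [chain_cons_cons]
      rw [hB'] at ih
      simp only [List.length_append, List.length_take]
      rw [ih]
      simp only [List.map_cons, List.sum_cons]
      rw [chain_cons_cons]
      simp only [List.length_append, List.length_take]
      omega

/-- the representatives have a common superstring of length at most `|W| + C` -/
theorem exists_superstring_opened (s : ι → List α) (hne : ∀ i, s i ≠ [])
    (hsf : ∀ i j, i ≠ j → ¬ s i <:+: s j) (σ : Equiv.Perm ι) (w : Finset ι → ι)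
    (hw : ∀ c ∈ cyclesOf σ, w c ∈ c)
    (W : List α) (hW : ∀ i, s i <:+: W) :
    ∃ W' : List α, (∀ c ∈ cyclesOf σ, opened s σ (w c) c <:+: W') ∧
      W'.length ≤ W.length + coverCost s σ := by
  classical
  obtain ⟨l, hnd, hall, hlen, -⟩ := exists_order s hne hsf W hW
  let m : ι → ℕ := fun i => if i = σ (w (orb σ i)) then Function.minimalPeriod σ i else 0
  have hm : ∀ i, (⇑σ)^[m i] i = i := by
    intro i
    by_cases h : i = σ (w (orb σ i))
    · simp only [m, if_pos h]
      exact Function.iterate_minimalPeriod
    · simp [m, h]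
  let L : ι → List ι := fun i => (List.range (m i + 1)).map (fun j => (⇑σ)^[j] i)
  let cost : ι → ℕ := fun i => ∑ j ∈ Finset.range (m i), pre (s ((⇑σ)^[j] i)) (s ((⇑σ)^[j + 1] i))
  have hnes : ∀ (K : List ι), ∀ z ∈ K.map s, z ≠ [] := by
    intro K z hz
    obtain ⟨j, -, rfl⟩ := List.mem_map.1 hz
    exact hne _
  refine ⟨chain ((l.flatMap L).map s), ?_, ?_⟩
  · intro c hc
    have horb : orb σ (w c) = c := orb_of_mem_cycles hc (hw c hc)
    set r := σ (w c) with hr
    have hrorb : r ∈ orb σ (w c) := orb_invariant σ (mem_orb_self σ _)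
    have horbr : orb σ r = c := by
      rw [orb_eq_of_mem σ hrorb, horb]
    have hmr : m r = Function.minimalPeriod σ r := by
      have : r = σ (w (orb σ r)) := by rw [horbr]
      simp only [m, if_pos this]
    obtain ⟨l1, l2, hl⟩ := List.append_of_mem (hall r)
    have h1 : (l.flatMap L).map s = (l1.flatMap L).map s ++ (L r).map s ++ (l2.flatMap L).map s := by
      rw [hl]
      simp [List.flatMap_append, List.flatMap_cons, List.map_append, List.append_assoc]
    rw [h1]
    have hLne : (L r).map s ≠ [] := by
      simp [L]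
    have h2 := chain_infix ((l1.flatMap L).map s) ((L r).map s) ((l2.flatMap L).map s) hLne
      (by
        intro z hz
        rw [← h1] at hz
        exact hnes _ z hz)
    refine List.IsInfix.trans ?_ h2
    have e1 : (L r).map s = (openedAt s σ (w c) c.card) ++ [s ((⇑σ)^[m r] r)] := by
      have hmr' : m r = c.card := by rw [hmr, ← card_orb, horbr]
      simp only [L, openedAt]
      rw [hmr', List.range_succ, List.map_append, List.map_append]
      simp only [List.map_cons, List.map_nil, List.map_map]
      congr 1
    rw [e1]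
    have hpos : openedAt s σ (w c) c.card ≠ [] := by
      rw [← horb, card_orb]
      have := minPer_pos σ (w c)
      unfold openedAt
      intro h0
      simp only [List.map_eq_nil_iff, List.range_eq_nil] at h0
      omega
    refine (chain_append_prefix _ _ hpos ?_).isInfix
    rw [← e1]
    exact hnes _
  · have h3 := walk_length s (⇑σ) m hm l
    have h4 : (chain ((l.flatMap L).map s)).length = _ := h3
    rw [h4]
    have h5 : (l.map (fun i => ∑ j ∈ Finset.range (m i), pre (s ((⇑σ)^[j] i)) (s ((⇑σ)^[j + 1] i)))).sum
        = ∑ i, cost i := by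
      have hK : (Finset.univ : Finset ι) = l.toFinset := by
        ext i
        simp [hall]
      rw [hK, List.sum_toFinset _ hnd]
    have h6 : ∑ i, cost i = coverCost s σ := by
      rw [← sum_cycles σ cost]
      unfold coverCost
      rw [← sum_cycles σ (fun i => pre (s i) (s (σ i)))]
      apply Finset.sum_congr rfl
      intro c hc
      have horb : orb σ (w c) = c := orb_of_mem_cycles hc (hw c hc)
      set r := σ (w c) with hr
      have hrorb : r ∈ orb σ (w c) := orb_invariant σ (mem_orb_self σ _)
      have hrc : r ∈ c := by rw [← horb]; exact hrorb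
      have horbr : orb σ r = c := orb_of_mem_cycles hc hrc
      rw [Finset.sum_eq_single_of_mem r hrc]
      · have hmr : m r = Function.minimalPeriod σ r := by
          have : r = σ (w (orb σ r)) := by rw [horbr]
          simp only [m, if_pos this]
        have := cycleCost_orb s σ r
        rw [horbr] at this
        unfold cycleCost at this
        rw [this]
        simp only [cost, hmr]
        unfold posn arcLen
        rfl
      · intro y hy hyr
        have horby : orb σ y = c := orb_of_mem_cycles hc hy
        have : m y = 0 := by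
          simp only [m]
          rw [if_neg]
          rw [horby]
          exact hyr
        simp [cost, this]
    rw [h5, h6]
    omega

end Vale.Agent.Lib.P333K
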