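import Vale.Agent.Lib.P333K.Main

/-! The bound `T + 2 m ≤ |W| + 2 C` and the analysis of the representative merging step. -/

namespace Vale.Agent.Lib.P333K

variable {α : Type*} [DecidableEq α] {ι : Type*} [Fintype ι] [DecidableEq ι]

lemma sum_cycleCost (s : ι → List α) (σ : Equiv.Perm ι) :
    ∑ c ∈ cyclesOf σ, cycleCost s σ c = coverCost s σ := by
  unfold cycleCost coverCost
  exact sum_cycles σ (fun i => pre (s i) (s (σ i)))

lemma opened_length' (s : ι → List α) (hne : ∀ i, s i ≠ []) (σ : Equiv.Perm ι) (w : Finset ι → ι)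
    {c : Finset ι} (hc : c ∈ cyclesOf σ) (hw : w c ∈ c) :
    (opened s σ (w c) c).length = cycleCost s σ c + ov (s (w c)) (s (σ (w c))) := by
  have h := opened_length s hne σ (w c)
  rwa [orb_of_mem_cycles hc hw] at h

lemma infix_opened' (s : ι → List α) (hne : ∀ i, s i ≠ []) (σ : Equiv.Perm ι) (w : Finset ι → ι)
    {c : Finset ι} (hc : c ∈ cyclesOf σ) (hw : w c ∈ c) {i : ι} (hi : i ∈ c) :
    s i <:+: opened s σ (w c) c := by
  have h := infix_opened s hne σ (w c) (y := i)
  rw [orb_of_mem_cycles hc hw] at h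
  exact h hi

/-- the representatives have total length at most `|W| + 2 C - 2 m` -/
theorem total_length_bound (s : ι → List α) (hne : ∀ i, s i ≠ [])
    (hsf : ∀ i j, i ≠ j → ¬ s i <:+: s j)
    (σ : Equiv.Perm ι) (hmin : ∀ τ : Equiv.Perm ι, coverCost s σ ≤ coverCost s τ)
    (w : Finset ι → ι)
    (hw : ∀ c ∈ cyclesOf σ, w c ∈ c ∧ ∀ i ∈ c, ov (s (w c)) (s (σ (w c))) ≤ ov (s i) (s (σ i)))
    (W : List α) (hW : ∀ i, s i <:+: W) :
    ∑ c ∈ cyclesOf σ, (opened s σ (w c) c).length + 2 * (cyclesOf σ).card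
      ≤ W.length + 2 * coverCost s σ := by
  have h1 := key_ineq s hne hsf σ hmin w hw W hW
  have h2 : ∑ c ∈ cyclesOf σ, (opened s σ (w c) c).length
      = coverCost s σ + ∑ c ∈ cyclesOf σ, ov (s (w c)) (s (σ (w c))) := by
    rw [← sum_cycleCost, ← Finset.sum_add_distrib]
    apply Finset.sum_congr rfl
    intro c hc
    exact opened_length' s hne σ w hc (hw c hc).1
  rw [Finset.sum_add_distrib, Finset.sum_const, smul_eq_mul] at h1
  rw [h2]
  omega

/-- the minimum cycle cover cost is at most the length of any superstring -/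
theorem coverCost_le (s : ι → List α) (hne : ∀ i, s i ≠ [])
    (hsf : ∀ i j, i ≠ j → ¬ s i <:+: s j)
    (σ : Equiv.Perm ι) (hmin : ∀ τ : Equiv.Perm ι, coverCost s σ ≤ coverCost s τ)
    (W : List α) (hW : ∀ i, s i <:+: W) : coverCost s σ ≤ W.length := by
  obtain ⟨l, -, -, -, h⟩ := exists_order s hne hsf W hW
  exact (hmin _).trans h

/-- a substring free list of strings with a superstring has an order whose total overlap is large -/
theorem exists_perm_ovSum (P : List (List α)) (hnd : P.Nodup) (hne : ∀ z ∈ P, z ≠ [])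
    (hsf : ∀ z ∈ P, ∀ z' ∈ P, z ≠ z' → ¬ z <:+: z')
    (W : List α) (hW : ∀ z ∈ P, z <:+: W) :
    ∃ P' : List (List α), P'.Perm P ∧ (P.map List.length).sum ≤ W.length + ovSum P' := by
  classical
  let t : Fin P.length → List α := fun k => P.get k
  have hinj : Function.Injective t := List.Nodup.injective_get hnd
  obtain ⟨l, hl1, hl2, hl3, -⟩ := exists_order t (fun k => hne _ (List.get_mem _ _))
    (fun i j hij => hsf _ (List.get_mem _ _) _ (List.get_mem _ _) (fun h => hij (hinj h)))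
    W (fun k => hW _ (List.get_mem _ _))
  have hperm : (l.map t).Perm P := by
    have h1 : l.Perm (List.finRange P.length) :=
      (List.perm_ext_iff_of_nodup hl1 (List.nodup_finRange _)).2 (by simp [hl2])
    have h2 := h1.map t
    have h3 : (List.finRange P.length).map t = P := by
      simp [t]
    rwa [h3] at h2
  refine ⟨l.map t, hperm, ?_⟩
  have h4 := chain_length_add (l.map t) (by
    intro z hz
    exact hne z (hperm.subset hz))
  have h5 : ((l.map t).map List.length).sum = (P.map List.length).sum :=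
    (hperm.map _).sum_eq
  omega

/-- the analysis of merging the representatives along an approximately best order -/
theorem pipeline_bound (s : ι → List α) (hne : ∀ i, s i ≠ [])
    (hsf : ∀ i j, i ≠ j → ¬ s i <:+: s j)
    (σ : Equiv.Perm ι) (hmin : ∀ τ : Equiv.Perm ι, coverCost s σ ≤ coverCost s τ)
    (w : Finset ι → ι)
    (hw : ∀ c ∈ cyclesOf σ, w c ∈ c ∧ ∀ i ∈ c, ov (s (w c)) (s (σ (w c))) ≤ ov (s i) (s (σ i)))
    (a : ℝ) (ha0 : 0 ≤ a) (ha1 : a ≤ 1) (P : List (List α)) (hnd : P.Nodup)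
    (hP : ∀ z ∈ P, ∃ c ∈ cyclesOf σ, z = opened s σ (w c) c)
    (hcov : ∀ c ∈ cyclesOf σ, ∃ z ∈ P, opened s σ (w c) c <:+: z)
    (hsfP : ∀ z ∈ P, ∀ z' ∈ P, z ≠ z' → ¬ z <:+: z')
    (happ : ∀ P' : List (List α), P'.Perm P → a * (ovSum P' : ℝ) ≤ (ovSum P : ℝ)) :
    (∀ i, s i <:+: chain P) ∧
    ∀ W : List α, (∀ i, s i <:+: W) →
      ((chain P).length : ℝ) ≤ W.length + (2 - a) * coverCost s σ ∧
      ((chain P).length : ℝ) ≤ (3 - a) * W.length := by
  classical
  have hnez : ∀ z ∈ P, z ≠ [] := by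
    intro z hz
    obtain ⟨c, hc, rfl⟩ := hP z hz
    have h1 : c = orb σ (w c) := (orb_of_mem_cycles hc (hw c hc).1).symm
    have h2 := infix_opened' s hne σ w hc (hw c hc).1 (hw c hc).1
    intro h0
    rw [h0] at h2
    exact hne _ (List.eq_nil_of_infix_nil h2)
  have hcontains : ∀ i, s i <:+: chain P := by
    intro i
    have hc : orb σ i ∈ cyclesOf σ := mem_cyclesOf.2 ⟨i, rfl⟩
    obtain ⟨z, hz, hz2⟩ := hcov _ hc
    exact ((infix_opened' s hne σ w hc (hw _ hc).1 (mem_orb_self σ i)).trans hz2).trans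
      (mem_chain P hnez hz)
  refine ⟨hcontains, ?_⟩
  intro W hW
  obtain ⟨W', hW'1, hW'2⟩ := exists_superstring_opened s hne hsf σ w (fun c hc => (hw c hc).1) W hW
  have hPW' : ∀ z ∈ P, z <:+: W' := by
    intro z hz
    obtain ⟨c, hc, rfl⟩ := hP z hz
    exact hW'1 c hc
  obtain ⟨P', hperm, hP'⟩ := exists_perm_ovSum P hnd hnez hsfP W' hPW'
  have hT := total_length_bound s hne hsf σ hmin w hw W hW
  have hC := coverCost_le s hne hsf σ hmin W hW
  -- total length of `P` is at most the total length of all the representatives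
  have hS : (P.map List.length).sum ≤ ∑ c ∈ cyclesOf σ, (opened s σ (w c) c).length := by
    choose! g hg1 hg2 using hP
    have hinjg : Set.InjOn g P.toFinset := by
      intro z hz z' hz' h
      have hz1 : z ∈ P := by simpa using hz
      have hz2 : z' ∈ P := by simpa using hz'
      rw [hg2 z hz1, hg2 z' hz2, h]
    have e : (P.map List.length).sum = ∑ z ∈ P.toFinset, z.length := by
      rw [List.sum_toFinset _ hnd]
    rw [e]
    have e2 : ∑ z ∈ P.toFinset, z.length = ∑ c ∈ P.toFinset.image g, (opened s σ (w c) c).length := by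
      rw [Finset.sum_image hinjg]
      apply Finset.sum_congr rfl
      intro z hz
      have hz1 : z ∈ P := by simpa using hz
      rw [← hg2 z hz1]
    rw [e2]
    apply Finset.sum_le_sum_of_subset
    intro c hc
    obtain ⟨z, hz, rfl⟩ := Finset.mem_image.1 hc
    exact hg1 z (by simpa using hz)
  have hlen := chain_length_add P hnez
  have happ' := happ P' hperm
  -- arithmetic over the reals
  have r1 : (((chain P).length : ℝ)) + (ovSum P : ℝ) = ((P.map List.length).sum : ℝ) := by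
    exact_mod_cast hlen
  have r2 : (((P.map List.length).sum : ℕ) : ℝ) ≤ (W'.length : ℝ) + (ovSum P' : ℝ) := by
    exact_mod_cast hP'
  have r3 : (W'.length : ℝ) ≤ (W.length : ℝ) + (coverCost s σ : ℝ) := by
    exact_mod_cast hW'2
  have r4 : (((P.map List.length).sum : ℕ) : ℝ) ≤ (W.length : ℝ) + 2 * (coverCost s σ : ℝ) := by
    have : (P.map List.length).sum ≤ W.length + 2 * coverCost s σ := by omega
    exact_mod_cast this
  have r5 : (coverCost s σ : ℝ) ≤ (W.length : ℝ) := by
    exact_mod_cast hC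
  set S : ℝ := (((P.map List.length).sum : ℕ) : ℝ) with hSdef
  set n : ℝ := (W.length : ℝ) with hn
  set C : ℝ := (coverCost s σ : ℝ) with hCdef
  set X : ℝ := (ovSum P' : ℝ) with hX
  set Y : ℝ := (ovSum P : ℝ) with hY
  set L : ℝ := ((chain P).length : ℝ) with hL
  set V : ℝ := (W'.length : ℝ) with hV
  have main : L ≤ n + (2 - a) * C := by
    have h1 : L = S - Y := by linarith
    have h2 : a * (S - V) ≤ a * X := mul_le_mul_of_nonneg_left (by linarith) ha0
    have h3 : (1 - a) * S ≤ (1 - a) * (n + 2 * C) :=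
      mul_le_mul_of_nonneg_left r4 (by linarith)
    have h4 : a * V ≤ a * (n + C) := mul_le_mul_of_nonneg_left r3 ha0
    nlinarith
  refine ⟨main, ?_⟩
  have h5 : (2 - a) * C ≤ (2 - a) * n := mul_le_mul_of_nonneg_left r5 (by linarith)
  nlinarith

/-- existence of the objects in the hypotheses -/
theorem exists_min_cover [Nonempty ι] (s : ι → List α) :
    ∃ σ : Equiv.Perm ι, (∀ τ : Equiv.Perm ι, coverCost s σ ≤ coverCost s τ) ∧
      ∃ w : Finset ι → ι, ∀ c ∈ cyclesOf σ, w c ∈ c ∧
        ∀ i ∈ c, ov (s (w c)) (s (σ (w c))) ≤ ov (s i) (s (σ i)) := by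
  classical
  obtain ⟨σ, hσ⟩ := Finite.exists_min (fun τ : Equiv.Perm ι => coverCost s τ)
  refine ⟨σ, hσ, ?_⟩
  have h : ∀ c ∈ cyclesOf σ, ∃ x, x ∈ c ∧ ∀ i ∈ c, ov (s x) (s (σ x)) ≤ ov (s i) (s (σ i)) := by
    intro c hc
    obtain ⟨j, rfl⟩ := mem_cyclesOf.1 hc
    obtain ⟨x, hx, hx2⟩ := Finset.exists_min_image (orb σ j) (fun i => ov (s i) (s (σ i)))
      ⟨j, mem_orb_self σ j⟩
    exact ⟨x, hx, hx2⟩
  choose! w hw using h
  exact ⟨w, hw⟩

end Vale.Agent.Lib.P333K

namespace Vale.Agent.Lib.P333K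

variable {α : Type*} [DecidableEq α] {ι : Type*}

/-- a finite family of strings has a substring free sublist covering it, with a best order -/
theorem exists_reduced (I : Finset ι) (Z : ι → List α) :
    ∃ P : List (List α), P.Nodup ∧ (∀ z ∈ P, ∃ c ∈ I, z = Z c) ∧
      (∀ c ∈ I, ∃ z ∈ P, Z c <:+: z) ∧ (∀ z ∈ P, ∀ z' ∈ P, z ≠ z' → ¬ z <:+: z') ∧
      ∀ P' : List (List α), P'.Perm P → ovSum P' ≤ ovSum P := by
  classical
  let F : Finset (List α) := I.image Z
  let M : Finset (List α) := F.filter fun z => ∀ z' ∈ F, z <:+: z' → z' = z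
  -- choose an order of `M` with the largest total overlap
  obtain ⟨P, hP1, hP2⟩ := Finset.exists_max_image (M.toList.permutations.toFinset) ovSum
    ⟨M.toList, by simp⟩
  have hP1' : P.Perm M.toList := by simpa using hP1
  have hmem : ∀ z, z ∈ P ↔ z ∈ M := by
    intro z
    rw [hP1'.mem_iff]
    simp
  refine ⟨P, ?_, ?_, ?_, ?_, ?_⟩
  · exact hP1'.nodup_iff.2 (Finset.nodup_toList M)
  · intro z hz
    have h1 := (hmem z).1 hz
    have h2 := (Finset.mem_filter.1 h1).1
    obtain ⟨c, hc, rfl⟩ := Finset.mem_image.1 h2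
    exact ⟨c, hc, rfl⟩
  · intro c hc
    have hne : (F.filter fun z => Z c <:+: z).Nonempty :=
      ⟨Z c, Finset.mem_filter.2 ⟨Finset.mem_image_of_mem _ hc, List.infix_refl _⟩⟩
    obtain ⟨z, hz1, hz2⟩ := Finset.exists_max_image _ List.length hne
    obtain ⟨hzF, hcz⟩ := Finset.mem_filter.1 hz1
    refine ⟨z, (hmem z).2 (Finset.mem_filter.2 ⟨hzF, ?_⟩), hcz⟩
    intro z' hz' hzz'
    have h3 := hz2 z' (Finset.mem_filter.2 ⟨hz', hcz.trans hzz'⟩)
    exact (hzz'.eq_of_length_le h3).symm
  · intro z hz z' hz' hne' hinf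
    have h1 := (hmem z).1 hz
    have h2 := (hmem z').1 hz'
    have h3 := (Finset.mem_filter.1 h1).2 z' (Finset.mem_filter.1 h2).1 hinf
    exact hne' h3.symm
  · intro P' hP'
    apply hP2
    simp only [List.mem_toFinset, List.mem_permutations]
    exact hP'.trans hP1'

end Vale.Agent.Lib.P333K
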