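import Vale.Agent.Lib.P333K.Basic

/-! Sorted orders, re-routing a minimum cycle cover, from a superstring to an order. -/

namespace Vale.Agent.Lib.P333K

variable {α : Type*} [DecidableEq α] {ι : Type*} [DecidableEq ι]

lemma exists_sorted (K : Finset ι) (a : ι → ℕ) (hinj : Set.InjOn a K) :
    ∃ l : List ι, l.Nodup ∧ (∀ i, i ∈ l ↔ i ∈ K) ∧ l.Pairwise (fun i j => a i < a j) := by
  revert hinj
  refine Finset.induction_on_max_value a K ?_ ?_
  · intro _
    exact ⟨[], List.nodup_nil, by simp, List.Pairwise.nil⟩
  · intro b K' hb hmax ih hinj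
    obtain ⟨l, h1, h2, h3⟩ := ih (hinj.mono (by simp))
    refine ⟨l ++ [b], ?_, ?_, ?_⟩
    · rw [List.nodup_append]
      refine ⟨h1, by simp, ?_⟩
      intro x hx y hy
      simp only [List.mem_singleton] at hy
      subst hy
      rintro rfl
      exact hb ((h2 _).1 hx)
    · intro i
      simp [h2, or_comm]
    · rw [List.pairwise_append]
      refine ⟨h3, by simp, ?_⟩
      intro x hx y hy
      simp only [List.mem_singleton] at hy
      subst hy
      have hx' : x ∈ K' := (h2 x).1 hx
      have h4 := hmax x hx'
      rcases lt_or_eq_of_le h4 with h5 | h5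
      · exact h5
      · exfalso
        have : x = y := hinj (by simp [hx']) (by simp) h5
        exact hb (this ▸ hx')

lemma sum_formPerm_eq (F : ι → ι → ℕ) (l : List ι) (hl : l.Nodup) :
    ∑ i ∈ l.toFinset, F i (l.formPerm i) = (List.zipWith F l (l.rotate 1)).sum := by
  rw [List.sum_toFinset _ hl]
  congr 1
  apply List.ext_getElem (by simp)
  intro r h1 h2
  have hr : r < l.length := by simpa using h1
  simp only [List.getElem_map, List.getElem_zipWith]
  rw [List.formPerm_apply_getElem l hl r hr, List.getElem_rotate]

lemma zip_bound (F : ι → ι → ℕ) (a : ι → ℕ) (B : ℕ) (x : ι) (l : List ι) (y : ι)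
    (hs : (y :: l).Pairwise (fun i j => a i < a j))
    (h1 : ∀ i ∈ y :: l, F i x + a i ≤ B)
    (h2 : ∀ i ∈ y :: l, ∀ j ∈ y :: l, a i < a j → F i j + a i ≤ a j) :
    (List.zipWith F (y :: l) (l ++ [x])).sum + a y ≤ B := by
  induction l generalizing y with
  | nil =>
    simpa using h1 y (by simp)
  | cons z l ih =>
    have hyz : a y < a z := (List.pairwise_cons.1 hs).1 z (by simp)
    have h3 := h2 y (by simp) z (by simp) hyz
    have h4 := ih z (List.pairwise_cons.1 hs).2
      (fun i hi => h1 i (List.mem_cons_of_mem _ hi))
      (fun i hi j hj => h2 i (List.mem_cons_of_mem _ hi) j (List.mem_cons_of_mem _ hj))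
    simp only [List.cons_append, List.zipWith_cons_cons, List.sum_cons] at h4 ⊢
    omega

variable [Fintype ι]

lemma not_mem_of_invariant (σ : Equiv.Perm ι) (K : Finset ι) (hinv : ∀ i ∈ K, σ i ∈ K) {i : ι}
    (hi : i ∉ K) : σ i ∉ K := by
  intro h
  have himg : K.image σ = K := by
    apply Finset.eq_of_subset_of_card_le
    · intro y hy
      obtain ⟨k, hk, rfl⟩ := Finset.mem_image.1 hy
      exact hinv k hk
    · rw [Finset.card_image_of_injective _ σ.injective]
  rw [← himg] at h
  obtain ⟨k, hk, hk2⟩ := Finset.mem_image.1 h
  exact hi (σ.injective hk2 ▸ hk)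

lemma exists_perm_of_list (σ : Equiv.Perm ι) (K : Finset ι) (hinv : ∀ i ∈ K, σ i ∈ K)
    (l : List ι) (hmem : ∀ i, i ∈ l ↔ i ∈ K) :
    ∃ τ : Equiv.Perm ι, (∀ i ∈ K, τ i = l.formPerm i) ∧ (∀ i, i ∉ K → τ i = σ i) := by
  classical
  let f : ι → ι := fun i => if i ∈ K then l.formPerm i else σ i
  have hf : Function.Injective f := by
    intro i j hij
    by_cases hi : i ∈ K <;> by_cases hj : j ∈ K
    · simp only [f, hi, hj, if_true] at hij
      exact l.formPerm.injective hij
    · exfalso
      simp only [f, hi, hj, if_true, if_false] at hij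
      have h1 : l.formPerm i ∈ K := (hmem _).1 (List.formPerm_apply_mem_of_mem ((hmem _).2 hi))
      exact not_mem_of_invariant σ K hinv hj (hij ▸ h1)
    · exfalso
      simp only [f, hi, hj, if_true, if_false] at hij
      have h1 : l.formPerm j ∈ K := (hmem _).1 (List.formPerm_apply_mem_of_mem ((hmem _).2 hj))
      exact not_mem_of_invariant σ K hinv hi (hij ▸ h1)
    · simp only [f, hi, hj, if_false] at hij
      exact σ.injective hij
  let τ : Equiv.Perm ι := Equiv.ofBijective f (Finite.injective_iff_bijective.1 hf)
  refine ⟨τ, ?_, ?_⟩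
  · intro i hi
    show f i = _
    simp [f, hi]
  · intro i hi
    show f i = _
    simp [f, hi]

/-- re-routing: if the strings of an invariant set occur in a word of period `q`, their arcs in a
minimum cycle cover cost at most `q` -/
theorem reroute (s : ι → List α) (hne : ∀ i, s i ≠ []) (hsf : ∀ i j, i ≠ j → ¬ s i <:+: s j)
    (σ : Equiv.Perm ι) (hmin : ∀ τ : Equiv.Perm ι, coverCost s σ ≤ coverCost s τ)
    (K : Finset ι) (hinv : ∀ i ∈ K, σ i ∈ K) (v : ℕ → α) (q : ℕ) (hq : 0 < q)
    (hv : ∀ k, v (k + q) = v k) (a : ι → ℕ) (ha : ∀ i ∈ K, gram v (a i) (s i).length = s i) :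
    ∑ i ∈ K, pre (s i) (s (σ i)) ≤ q := by
  classical
  let b : ι → ℕ := fun i => a i % q
  have hbq : ∀ i, b i < q := fun i => Nat.mod_lt _ hq
  have hb : ∀ i ∈ K, gram v (b i) (s i).length = s i := by
    intro i hi
    conv_rhs => rw [← ha i hi]
    apply gram_eq_of
    intro k _
    have e : a i + k = b i + k + (a i / q) * q := by
      have := Nat.mod_add_div (a i) q
      simp only [b]
      nlinarith [Nat.mul_comm q (a i / q)]
    rw [e, periodic_add_mul hv]
  have hinj : Set.InjOn b K := by
    intro i hi j hj hij
    by_contra hne'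
    have hi' : i ∈ K := hi
    have hj' : j ∈ K := hj
    rcases le_total (s i).length (s j).length with h | h
    · apply hsf i j hne'
      have h1 : gram v (b i) (s i).length <+: gram v (b j) (s j).length := by
        rw [← hij, ← gram_take v (b i) (s j).length (s i).length h]
        exact List.take_prefix _ _
      rw [hb i hi', hb j hj'] at h1
      exact h1.isInfix
    · apply hsf j i (Ne.symm hne')
      have h1 : gram v (b j) (s j).length <+: gram v (b i) (s i).length := by
        rw [hij, ← gram_take v (b j) (s i).length (s j).length h]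
        exact List.take_prefix _ _
      rw [hb i hi', hb j hj'] at h1
      exact h1.isInfix
  obtain ⟨l, hnd, hmem, hsort⟩ := exists_sorted K b hinj
  obtain ⟨τ, hτ1, hτ2⟩ := exists_perm_of_list σ K hinv l hmem
  have hcost : ∑ i ∈ K, pre (s i) (s (σ i)) ≤ ∑ i ∈ K, pre (s i) (s (τ i)) := by
    have h1 := hmin τ
    unfold coverCost at h1
    rw [← Finset.sum_add_sum_compl K, ← Finset.sum_add_sum_compl K (fun i => pre (s i) (s (τ i)))]
      at h1
    have h2 : ∑ i ∈ Kᶜ, pre (s i) (s (τ i)) = ∑ i ∈ Kᶜ, pre (s i) (s (σ i)) := by
      apply Finset.sum_congr rfl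
      intro i hi
      rw [hτ2 i (Finset.mem_compl.1 hi)]
    omega
  have hK : K = l.toFinset := by
    ext i
    simp [hmem]
  have heq : ∑ i ∈ K, pre (s i) (s (τ i)) = (List.zipWith (fun i j => pre (s i) (s j)) l (l.rotate 1)).sum := by
    rw [← sum_formPerm_eq (fun i j => pre (s i) (s j)) l hnd, ← hK]
    apply Finset.sum_congr rfl
    intro i hi
    rw [hτ1 i hi]
  refine hcost.trans ?_
  rw [heq]
  cases l with
  | nil => simp
  | cons x l =>
    have hx : x ∈ K := (hmem x).1 (by simp)
    have hrot : (x :: l).rotate 1 = l ++ [x] := by simp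
    rw [hrot]
    have := zip_bound (fun i j => pre (s i) (s j)) b (b x + q) x l x hsort
      (by
        intro i hi
        have hiK : i ∈ K := (hmem i).1 hi
        have h1 : gram v (b x + q) (s x).length = s x := by
          conv_rhs => rw [← hb x hx]
          apply gram_eq_of
          intro k _
          rw [show b x + q + k = b x + k + q by ring, hv]
        have h2 := pre_le_of_occ v (hb i hiK) h1 (by have := hbq i; omega) (hne i) (hne x)
          (by
            by_cases hix : i = x
            · exact Or.inl (by rw [hix])
            · exact Or.inr (hsf x i (Ne.symm hix)))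
        have := hbq i
        omega)
      (by
        intro i hi j hj hij
        have hiK : i ∈ K := (hmem i).1 hi
        have hjK : j ∈ K := (hmem j).1 hj
        have h2 := pre_le_of_occ v (hb i hiK) (hb j hjK) hij (hne i) (hne j)
          (by
            by_cases hix : i = j
            · exact Or.inl (by rw [hix])
            · exact Or.inr (hsf j i (Ne.symm hix)))
        omega)
    omega

/-- from a superstring to an order of the strings -/
theorem exists_order (s : ι → List α) (hne : ∀ i, s i ≠ []) (hsf : ∀ i j, i ≠ j → ¬ s i <:+: s j)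
    (W : List α) (hW : ∀ i, s i <:+: W) :
    ∃ l : List ι, l.Nodup ∧ (∀ i, i ∈ l) ∧ (chain (l.map s)).length ≤ W.length ∧
      coverCost s l.formPerm ≤ W.length := by
  classical
  rcases isEmpty_or_nonempty ι with hι | ⟨⟨i0⟩⟩
  · refine ⟨[], List.nodup_nil, fun i => hι.elim i, by simp [chain], ?_⟩
    simp [coverCost]
  -- a default letter
  obtain ⟨d, t, -⟩ := List.exists_cons_of_ne_nil (hne i0)
  have hpos : ∀ i, ∃ a, a + (s i).length ≤ W.length ∧
      gram (fun k => W.getD k d) a (s i).length = s i := fun i => exists_gram_of_infix d (hW i)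
  choose a ha1 ha2 using hpos
  set v : ℕ → α := fun k => W.getD k d with hv
  have hinj : Set.InjOn a (Finset.univ : Finset ι) := by
    intro i _ j _ hij
    by_contra hne'
    rcases le_total (s i).length (s j).length with h | h
    · apply hsf i j hne'
      have h1 : gram v (a i) (s i).length <+: gram v (a j) (s j).length := by
        rw [← hij, ← gram_take v (a i) (s j).length (s i).length h]
        exact List.take_prefix _ _
      rw [ha2 i, ha2 j] at h1
      exact h1.isInfix
    · apply hsf j i (Ne.symm hne')
      have h1 : gram v (a j) (s j).length <+: gram v (a i) (s i).length := by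
        rw [hij, ← gram_take v (a j) (s i).length (s j).length h]
        exact List.take_prefix _ _
      rw [ha2 i, ha2 j] at h1
      exact h1.isInfix
  obtain ⟨l, hnd, hmem, hsort⟩ := exists_sorted Finset.univ a hinj
  have harc : ∀ i j, a i < a j → pre (s i) (s j) + a i ≤ a j := by
    intro i j hij
    have h2 := pre_le_of_occ v (ha2 i) (ha2 j) hij (hne i) (hne j)
      (by
        by_cases hix : i = j
        · exact Or.inl (by rw [hix])
        · exact Or.inr (hsf j i (Ne.symm hix)))
    omega
  have hchain : ∀ (y : ι) (l : List ι), (y :: l).Pairwise (fun i j => a i < a j) →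
      (chain ((y :: l).map s)).length + a y ≤ W.length := by
    intro y l
    induction l generalizing y with
    | nil =>
      intro _
      have := ha1 y
      simp only [List.map_cons, List.map_nil, chain]
      omega
    | cons z l ih =>
      intro hs
      have hyz : a y < a z := (List.pairwise_cons.1 hs).1 z (by simp)
      have h3 := harc y z hyz
      have h4 := ih z (List.pairwise_cons.1 hs).2
      simp only [List.map_cons] at h4 ⊢
      rw [chain_cons_cons]
      simp only [List.length_append, List.length_take]
      have := pre_le (s y) (s z)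
      omega
  refine ⟨l, hnd, fun i => (hmem i).2 (Finset.mem_univ i), ?_, ?_⟩
  · cases l with
    | nil => simp [chain]
    | cons x l =>
      have := hchain x l hsort
      omega
  · unfold coverCost
    have hK : (Finset.univ : Finset ι) = l.toFinset := by
      ext i
      simp [hmem]
    rw [hK, sum_formPerm_eq (fun i j => pre (s i) (s j)) l hnd]
    cases l with
    | nil => simp
    | cons x l =>
      have hrot : (x :: l).rotate 1 = l ++ [x] := by simp
      rw [hrot]
      have := zip_bound (fun i j => pre (s i) (s j)) a W.length x l x hsort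
        (by
          intro i _
          have := pre_le (s i) (s x)
          have := ha1 i
          omega)
        (by
          intro i _ j _ hij
          exact harc i j hij)
      omega

end Vale.Agent.Lib.P333K
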